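import Vale.Agent.Lib.P063.Fourier

/-!
# P063: averaging operators on the p-biased cube
-/

namespace Vale.Agent.P063

open Finset

variable {E : Type*} [Fintype E] [DecidableEq E]

omit [Fintype E] in
theorem mix_subset {D D' : Finset E} (h : D' ⊆ D) (x y y' : E → Bool) :
    mix D' (mix D x y) y' = mix D x (mix D' y y') := by
  funext e
  unfold mix
  by_cases h1 : e ∈ D'
  · simp [h1, h h1]
  · simp [h1]

omit [Fintype E] in
theorem mix_self_mix (D : Finset E) (x y y' : E → Bool) :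
    mix D (mix D x y) y' = mix D x y' := by
  funext e
  unfold mix
  by_cases h1 : e ∈ D
  · simp [h1]
  · simp [h1]

/-- tower property -/
theorem avg_avg_of_subset (p : ℝ) {D D' : Finset E} (h : D' ⊆ D) (f : (E → Bool) → ℝ)
    (x : E → Bool) : avg p D (avg p D' f) x = avg p D f x := by
  have h1 : avg p D (avg p D' f) x = Ex p (avg p D' (fun z => f (mix D x z))) := by
    unfold avg
    refine Ex_congr fun y => Ex_congr fun y' => ?_
    rw [mix_subset h]
  rw [h1, Ex_avg]
  rfl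

theorem avg_mix (p : ℝ) (D : Finset E) (f : (E → Bool) → ℝ) (x y : E → Bool) :
    avg p D f (mix D x y) = avg p D f x := by
  unfold avg
  refine Ex_congr fun y' => ?_
  rw [mix_self_mix]

/-- functions which do not depend on the coordinates in `D` can be pulled out -/
theorem avg_mul_of_indep (p : ℝ) (D : Finset E) (g h : (E → Bool) → ℝ)
    (hg : ∀ x y, g (mix D x y) = g x) (x : E → Bool) :
    avg p D (fun z => g z * h z) x = g x * avg p D h x := by
  unfold avg
  rw [← Ex_const_mul]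
  refine Ex_congr fun y => ?_
  change g (mix D x y) * h (mix D x y) = _
  rw [hg]

theorem avg_chi {p : ℝ} (hp0 : 0 < p) (hp1 : p < 1) (D S : Finset E) (x : E → Bool) :
    avg p D (chi p S) x = if S ∩ D = ∅ then chi p S x else 0 := by
  unfold avg
  have h1 : ∀ y : E → Bool, chi p S (mix D x y) = chi p (S \ D) x * chi p (S ∩ D) y :=
    fun y => chi_mix p D S x y
  simp_rw [h1]
  rw [Ex_const_mul, Ex_chi hp0 hp1]
  split_ifs with h
  · have : S \ D = S := by
      rw [Finset.sdiff_eq_self_iff_disjoint]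
      exact disjoint_iff_inter_eq_empty.2 h
    rw [this, mul_one]
  · rw [mul_zero]

theorem coef_avg {p : ℝ} (hp0 : 0 < p) (hp1 : p < 1) (D S : Finset E) (f : (E → Bool) → ℝ) :
    coef p (avg p D f) S = if S ∩ D = ∅ then coef p f S else 0 := by
  have h1 : coef p (avg p D f) S = Ex p (avg p D (fun x => avg p D f x * chi p S x)) := by
    rw [Ex_avg]; rfl
  have h2 : ∀ x, avg p D (fun x => avg p D f x * chi p S x) x
      = avg p D f x * avg p D (chi p S) x := fun x =>
    avg_mul_of_indep p D (avg p D f) (chi p S) (fun x y => avg_mix p D f x y) x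
  have h3 : ∀ x, avg p D (fun x => f x * avg p D (chi p S) x) x
      = avg p D f x * avg p D (chi p S) x := fun x => by
    have := avg_mul_of_indep p D (avg p D (chi p S)) f (fun x y => avg_mix p D _ x y) x
    rw [mul_comm (avg p D f x)]
    rw [← this]
    unfold avg
    exact Ex_congr fun y => by ring
  rw [h1]
  have h4 : Ex p (avg p D (fun x => avg p D f x * chi p S x))
      = Ex p (fun x => f x * avg p D (chi p S) x) := by
    rw [← Ex_avg p D (fun x => f x * avg p D (chi p S) x)]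
    refine Ex_congr fun x => ?_
    rw [h2, h3]
  rw [h4]
  split_ifs with h
  · unfold coef
    refine Ex_congr fun x => ?_
    rw [avg_chi hp0 hp1, if_pos h]
  · have h5 : Ex p (fun x => f x * avg p D (chi p S) x) = Ex (E := E) p (fun _ => 0) := by
      refine Ex_congr fun x => ?_
      rw [avg_chi hp0 hp1, if_neg h, mul_zero]
    rw [h5, Ex_const]

/-- the square of the norm of a partial Fourier sum -/
theorem Ex_partial_sq {p : ℝ} (hp0 : 0 < p) (hp1 : p < 1) (s : Finset (Finset E))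
    (c : Finset E → ℝ) :
    Ex p (fun x => (∑ S ∈ s, c S * chi p S x) ^ 2) = ∑ S ∈ s, c S ^ 2 := by
  have h1 : ∀ x : E → Bool, (∑ S ∈ s, c S * chi p S x) ^ 2
      = ∑ S ∈ s, ∑ T ∈ s, (c S * c T) * (chi p S x * chi p T x) := by
    intro x
    rw [sq, sum_mul_sum]
    refine sum_congr rfl fun S _ => sum_congr rfl fun T _ => ?_
    ring
  simp_rw [h1]
  rw [Ex_sum]
  refine sum_congr rfl fun S hS => ?_
  rw [Ex_sum]
  simp_rw [Ex_const_mul, Ex_chi_mul hp0 hp1]
  simp only [mul_ite, mul_one, mul_zero]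
  rw [sum_ite_eq, if_pos hS, sq]

/-- the basic three-quarter inequality -/
theorem Ex_mul_abs_pow_four_le {p : ℝ} (hp0 : 0 ≤ p) (hp1 : p ≤ 1) (g h : (E → Bool) → ℝ)
    (hg0 : ∀ x, 0 ≤ g x) (hg1 : ∀ x, g x ≤ 1) :
    (Ex p (fun x => g x * |h x|)) ^ 4 ≤ (Ex p g) ^ 3 * Ex p (fun x => h x ^ 4) := by
  have e1 : (Ex p (fun x => g x * |h x|)) ^ 2 ≤ Ex p g * Ex p (fun x => g x * h x ^ 2) := by
    have := Ex_mul_sq_le hp0 hp1 (fun x => Real.sqrt (g x)) (fun x => Real.sqrt (g x) * |h x|)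
    have h1 : Ex p (fun x => Real.sqrt (g x) * (Real.sqrt (g x) * |h x|))
        = Ex p (fun x => g x * |h x|) := Ex_congr fun x => by
      rw [← mul_assoc, Real.mul_self_sqrt (hg0 x)]
    have h2 : Ex p (fun x => Real.sqrt (g x) ^ 2) = Ex p g := Ex_congr fun x =>
      Real.sq_sqrt (hg0 x)
    have h3 : Ex p (fun x => (Real.sqrt (g x) * |h x|) ^ 2) = Ex p (fun x => g x * h x ^ 2) :=
      Ex_congr fun x => by rw [mul_pow, Real.sq_sqrt (hg0 x), sq_abs]
    rw [h1, h2, h3] at this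
    exact this
  have e2 : (Ex p (fun x => g x * h x ^ 2)) ^ 2 ≤ Ex p g * Ex p (fun x => h x ^ 4) := by
    have := Ex_mul_sq_le hp0 hp1 (fun x => Real.sqrt (g x))
      (fun x => Real.sqrt (g x) * h x ^ 2)
    have h1 : Ex p (fun x => Real.sqrt (g x) * (Real.sqrt (g x) * h x ^ 2))
        = Ex p (fun x => g x * h x ^ 2) := Ex_congr fun x => by
      rw [← mul_assoc, Real.mul_self_sqrt (hg0 x)]
    have h2 : Ex p (fun x => Real.sqrt (g x) ^ 2) = Ex p g := Ex_congr fun x =>
      Real.sq_sqrt (hg0 x)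
    have h3 : Ex p (fun x => (Real.sqrt (g x) * h x ^ 2) ^ 2)
        ≤ Ex p (fun x => h x ^ 4) := by
      refine Ex_mono hp0 hp1 fun x => ?_
      rw [mul_pow, Real.sq_sqrt (hg0 x)]
      have h5 : (h x ^ 2) ^ 2 = h x ^ 4 := by ring
      rw [h5]
      have : 0 ≤ h x ^ 4 := by positivity
      nlinarith [hg1 x, hg0 x]
    rw [h1, h2] at this
    exact this.trans (mul_le_mul_of_nonneg_left h3 (Ex_nonneg hp0 hp1 hg0))
  have hE : 0 ≤ Ex p g := Ex_nonneg hp0 hp1 hg0
  have hE2 : 0 ≤ Ex p (fun x => g x * h x ^ 2) :=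
    Ex_nonneg hp0 hp1 fun x => mul_nonneg (hg0 x) (sq_nonneg _)
  calc (Ex p (fun x => g x * |h x|)) ^ 4 = ((Ex p (fun x => g x * |h x|)) ^ 2) ^ 2 := by ring
    _ ≤ (Ex p g * Ex p (fun x => g x * h x ^ 2)) ^ 2 :=
        pow_le_pow_left₀ (sq_nonneg _) e1 2
    _ = (Ex p g) ^ 2 * (Ex p (fun x => g x * h x ^ 2)) ^ 2 := by ring
    _ ≤ (Ex p g) ^ 2 * (Ex p g * Ex p (fun x => h x ^ 4)) :=
        mul_le_mul_of_nonneg_left e2 (sq_nonneg _)
    _ = (Ex p g) ^ 3 * Ex p (fun x => h x ^ 4) := by ring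

end Vale.Agent.P063
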