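import Mathlib

/-!
# P063: from the differential inequality to the threshold width
-/

namespace Vale.Agent.P063

open Set

/-- `u log²(4/u) ≤ 16`, in the form used below, and `log (4/u) ≥ 1`. -/
theorem calc_log {u : ℝ} (hu0 : 0 < u) (hu : u ≤ 1 / 4) :
    1 ≤ Real.log (4 / u) ∧ u * Real.log (4 / u) ^ 2 ≤ 16 := by
  have hw : 16 ≤ 4 / u := by
    rw [le_div_iff₀ hu0]; linarith
  have hw0 : 0 < 4 / u := by positivity
  constructor
  · have h1 : Real.exp 1 ≤ 4 / u := by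
      have := Real.exp_one_lt_d9
      linarith
    have := Real.log_le_log (Real.exp_pos 1) h1
    rwa [Real.log_exp] at this
  · have h1 : Real.log (4 / u) ≤ 2 * √(4 / u) := by
      have h2 := Real.log_le_sub_one_of_pos (Real.sqrt_pos.2 hw0)
      rw [Real.log_sqrt hw0.le] at h2
      linarith
    have h3 : 0 ≤ Real.log (4 / u) := Real.log_nonneg (by linarith)
    have h4 : Real.log (4 / u) ^ 2 ≤ (2 * √(4 / u)) ^ 2 := pow_le_pow_left₀ h3 h1 2
    have h5 : (2 * √(4 / u)) ^ 2 = 16 / u := by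
      rw [mul_pow, Real.sq_sqrt hw0.le]; ring
    rw [h5] at h4
    calc u * Real.log (4 / u) ^ 2 ≤ u * (16 / u) := mul_le_mul_of_nonneg_left h4 hu0.le
      _ = 16 := by field_simp

/-- exponential decay against powers -/
theorem calc_exp {s c L : ℝ} (hs2 : s ≤ 2) (hs : 1 < s) (hc : 0 < c) (hL : 0 < L) :
    Real.exp (-(c * L)) ≤ (1 + 2 / c ^ 2) / L ^ s := by
  have hLs : 0 < L ^ s := Real.rpow_pos_of_pos hL s
  rw [le_div_iff₀ hLs]
  have he1 : Real.exp (-(c * L)) ≤ 1 := Real.exp_le_one_iff.2 (by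
    have := mul_pos hc hL
    linarith)
  have he0 : 0 < Real.exp (-(c * L)) := Real.exp_pos _
  rcases le_or_gt L 1 with h | h
  · have h1 : L ^ s ≤ 1 := Real.rpow_le_one hL.le h (by linarith)
    have h2 : Real.exp (-(c * L)) * L ^ s ≤ 1 := by
      calc Real.exp (-(c * L)) * L ^ s ≤ 1 * 1 := mul_le_mul he1 h1 hLs.le (by norm_num)
        _ = 1 := one_mul 1
    have : 0 ≤ 2 / c ^ 2 := by positivity
    linarith
  · have h1 : L ^ s ≤ L ^ 2 := by
      have := Real.rpow_le_rpow_of_exponent_le h.le hs2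
      rwa [Real.rpow_two] at this
    have h2 : (c * L) ^ 2 / 2 ≤ Real.exp (c * L) := by
      have := Real.quadratic_le_exp_of_nonneg (mul_pos hc hL).le
      have h3 : 0 < c * L := mul_pos hc hL
      linarith
    have h3 : Real.exp (-(c * L)) * L ^ 2 ≤ 2 / c ^ 2 := by
      rw [Real.exp_neg, le_div_iff₀ (by positivity), inv_mul_eq_div, div_mul_eq_mul_div,
        div_le_iff₀ (Real.exp_pos _)]
      have : L ^ 2 * c ^ 2 = (c * L) ^ 2 := by ring
      rw [this]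
      linarith
    calc Real.exp (-(c * L)) * L ^ s ≤ Real.exp (-(c * L)) * L ^ 2 :=
          mul_le_mul_of_nonneg_left h1 he0.le
      _ ≤ 2 / c ^ 2 := h3
      _ ≤ 1 + 2 / c ^ 2 := by linarith

/-- lower bound of the derivative in the critical window -/
theorem calc_deriv {s c ε L δ m m' ξ : ℝ} (hs : 1 < s) (hs2 : s ≤ 2) (hc : 0 < c) (hε : 0 < ε)
    (hε2 : ε < 1 / 2) (hL : 0 < L) (hδ : δ = 8 * Real.exp (-(c * L))) (h1 : δ < ξ) (h2 : ξ < 1 - δ)
    (hm1 : ε ≤ m) (hm2 : m ≤ 1 - ε)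
    (hd : Real.log (4 / (ξ * (1 - ξ))) ≤ c * L →
        c * (L / Real.log (4 / (ξ * (1 - ξ)))) ^ s * (m * (1 - m)) ≤ ξ * (1 - ξ) * m') :
    c * ε / 32 * L ^ s ≤ m' := by
  have hδ0 : 0 < δ := by rw [hδ]; positivity
  have hξ0 : 0 < ξ := by linarith
  have hξ1 : 0 < 1 - ξ := by linarith
  set u : ℝ := ξ * (1 - ξ) with hu
  have hu0 : 0 < u := mul_pos hξ0 hξ1
  have hu4 : u ≤ 1 / 4 := by rw [hu]; nlinarith [sq_nonneg (ξ - 1 / 2)]
  have hud : δ / 2 ≤ u := by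
    rw [hu]
    rcases le_or_gt ξ (1 / 2) with h | h
    · nlinarith
    · nlinarith
  obtain ⟨ht1, hut⟩ := calc_log hu0 hu4
  set t : ℝ := Real.log (4 / u) with ht
  have ht0 : 0 < t := by linarith
  have htL : t ≤ c * L := by
    rw [ht, ← Real.log_exp (c * L)]
    apply Real.log_le_log (by positivity)
    rw [div_le_iff₀ hu0]
    have h3 : 4 * Real.exp (-(c * L)) ≤ u := by rw [hδ] at hud; linarith
    have h4 : Real.exp (c * L) * (4 * Real.exp (-(c * L))) = 4 := by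
      rw [Real.exp_neg]; field_simp
    have h5 := mul_le_mul_of_nonneg_left h3 (Real.exp_pos (c * L)).le
    linarith
  have hd' := hd htL
  have hts : t ^ s ≤ t ^ 2 := by
    have := Real.rpow_le_rpow_of_exponent_le ht1 hs2
    rwa [Real.rpow_two] at this
  have hts0 : 0 < t ^ s := Real.rpow_pos_of_pos ht0 s
  have hLs0 : 0 < L ^ s := Real.rpow_pos_of_pos hL s
  rw [Real.div_rpow hL.le ht0.le] at hd'
  have hmm : ε / 2 ≤ m * (1 - m) := by nlinarith
  have hup : u * t ^ s ≤ 16 := (mul_le_mul_of_nonneg_left hts hu0.le).trans hut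
  -- multiply out
  have h6 : c * (L ^ s / t ^ s) * (ε / 2) ≤ u * m' :=
    (mul_le_mul_of_nonneg_left hmm (by positivity)).trans hd'
  have h7 : c * L ^ s * (ε / 2) ≤ (u * t ^ s) * m' := by
    have h8 := mul_le_mul_of_nonneg_left h6 hts0.le
    have e1 : t ^ s * (c * (L ^ s / t ^ s) * (ε / 2)) = c * L ^ s * (ε / 2) := by
      field_simp
    rw [e1] at h8
    linarith
  have hm'0 : 0 ≤ m' := by
    by_contra hcon
    push Not at hcon
    have h8 : 0 < c * L ^ s * (ε / 2) := by positivity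
    have h9 : (u * t ^ s) * m' < 0 := mul_neg_of_pos_of_neg (by positivity) hcon
    linarith
  have h8 : (u * t ^ s) * m' ≤ 16 * m' := mul_le_mul_of_nonneg_right hup hm'0
  linarith

/-- MODULE CALC : from the differential inequality to the threshold width. -/
theorem width_bound (s c ε : ℝ) (hs : 1 < s) (hs2 : s ≤ 2) (hc : 0 < c) (hε : 0 < ε)
    (hε2 : ε < 1 / 2) :
    ∃ C : ℝ, ∀ (L : ℝ) (μ μ' : ℝ → ℝ), Real.log 2 ≤ L → μ 0 = 0 → μ 1 = 1 →
      ContinuousOn μ (Set.Icc 0 1) → MonotoneOn μ (Set.Icc 0 1) →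
      (∀ p, 0 < p → p < 1 → HasDerivAt μ (μ' p) p) →
      (∀ p, 0 < p → p < 1 → Real.log (4 / (p * (1 - p))) ≤ c * L →
        c * (L / Real.log (4 / (p * (1 - p)))) ^ s * (μ p * (1 - μ p)) ≤ p * (1 - p) * μ' p) →
      sInf {p : ℝ | 0 ≤ p ∧ p ≤ 1 ∧ 1 - ε ≤ μ p} - sInf {p : ℝ | 0 ≤ p ∧ p ≤ 1 ∧ ε ≤ μ p}
        ≤ C / L ^ s := by
  refine ⟨16 * (1 + 2 / c ^ 2) + 32 / (c * ε), ?_⟩
  intro L μ μ' hL2 hμ0 hμ1 hcont hmono hder hineq
  have hL : 0 < L := lt_of_lt_of_le (Real.log_pos (by norm_num)) hL2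
  have hLs : 0 < L ^ s := Real.rpow_pos_of_pos hL s
  set A : Set ℝ := {p : ℝ | 0 ≤ p ∧ p ≤ 1 ∧ ε ≤ μ p} with hA
  set B : Set ℝ := {p : ℝ | 0 ≤ p ∧ p ≤ 1 ∧ 1 - ε ≤ μ p} with hB
  have hA1 : (1 : ℝ) ∈ A := ⟨by norm_num, le_rfl, by rw [hμ1]; linarith⟩
  have hB1 : (1 : ℝ) ∈ B := ⟨by norm_num, le_rfl, by rw [hμ1]; linarith⟩
  have hAbd : BddBelow A := ⟨0, fun p hp => hp.1⟩
  have hBbd : BddBelow B := ⟨0, fun p hp => hp.1⟩
  set a : ℝ := sInf A with ha
  set b : ℝ := sInf B with hb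
  have ha0 : 0 ≤ a := le_csInf ⟨1, hA1⟩ fun p hp => hp.1
  have hb1 : b ≤ 1 := csInf_le hBbd hB1
  have hAμ : ∀ p, a < p → p ≤ 1 → ε ≤ μ p := by
    intro p hp hp1
    obtain ⟨q, hq, hqp⟩ := exists_lt_of_csInf_lt ⟨1, hA1⟩ hp
    exact hq.2.2.trans (hmono ⟨hq.1, hq.2.1⟩ ⟨hq.1.trans hqp.le, hp1⟩ hqp.le)
  have hBμ : ∀ p, 0 ≤ p → p < b → μ p ≤ 1 - ε := by
    intro p hp0 hp
    by_contra hcon
    push Not at hcon
    have : p ∈ B := ⟨hp0, by linarith, hcon.le⟩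
    exact absurd (csInf_le hBbd this) (not_le.2 hp)
  set δ : ℝ := 8 * Real.exp (-(c * L)) with hδ
  have hδ0 : 0 < δ := by rw [hδ]; positivity
  have hδL : δ ≤ 8 * ((1 + 2 / c ^ 2) / L ^ s) := by
    rw [hδ]
    exact mul_le_mul_of_nonneg_left (calc_exp hs2 hs hc hL) (by norm_num)
  set p1 : ℝ := max a δ with hp1
  set p2 : ℝ := min b (1 - δ) with hp2
  have h1 : p1 - a ≤ δ := by
    rw [hp1]
    rcases le_total a δ with h | h
    · rw [max_eq_right h]; linarith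
    · rw [max_eq_left h]; linarith
  have h2 : b - p2 ≤ δ := by
    rw [hp2]
    rcases le_total b (1 - δ) with h | h
    · rw [min_eq_left h]; linarith
    · rw [min_eq_right h]; linarith
  have h3 : p2 - p1 ≤ 32 / (c * ε) / L ^ s := by
    rcases le_or_gt p2 p1 with h | h
    · have : 0 ≤ 32 / (c * ε) / L ^ s := by positivity
      linarith
    · have hp10 : 0 < p1 := lt_of_lt_of_le hδ0 (le_max_right _ _)
      have hp21 : p2 < 1 := lt_of_le_of_lt (min_le_right _ _) (by linarith)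
      obtain ⟨ξ, ⟨hξ1, hξ2⟩, hξ⟩ := exists_hasDerivAt_eq_slope μ μ' h
        (hcont.mono (Icc_subset_Icc hp10.le hp21.le))
        (fun x hx => hder x (by linarith [hx.1]) (by linarith [hx.2]))
      have hξ0 : 0 < ξ := by linarith
      have hξ1' : ξ < 1 := by linarith
      have hd := calc_deriv hs hs2 hc hε hε2 hL hδ
        (lt_of_le_of_lt (le_max_right _ _) hξ1) (lt_of_lt_of_le hξ2 (min_le_right _ _))
        (hAμ ξ (lt_of_le_of_lt (le_max_left _ _) hξ1) hξ1'.le)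
        (hBμ ξ hξ0.le (lt_of_lt_of_le hξ2 (min_le_left _ _)))
        (hineq ξ hξ0 hξ1')
      have hdiff : μ p2 - μ p1 ≤ 1 := by
        have m1 : μ p2 ≤ μ 1 := hmono ⟨by linarith, hp21.le⟩ ⟨by norm_num, le_rfl⟩ hp21.le
        have m2 : μ 0 ≤ μ p1 := hmono ⟨le_rfl, by norm_num⟩ ⟨hp10.le, by linarith⟩ hp10.le
        rw [hμ1] at m1
        rw [hμ0] at m2
        linarith
      rw [hξ, le_div_iff₀ (by linarith)] at hd
      have hκ : 0 < c * ε / 32 * L ^ s := by positivity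
      have h4 : p2 - p1 ≤ 1 / (c * ε / 32 * L ^ s) := by
        rw [le_div_iff₀ hκ]
        linarith
      refine h4.trans (le_of_eq ?_)
      field_simp
  have h5 : b - a ≤ 2 * (8 * ((1 + 2 / c ^ 2) / L ^ s)) + 32 / (c * ε) / L ^ s := by
    linarith
  refine h5.trans (le_of_eq ?_)
  ring

end Vale.Agent.P063
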