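import Vale.Agent.Lib.P063.Avg

/-!
# P063: the core inequality for a fixed set of vertices
-/

namespace Vale.Agent.P063

open Finset

variable {E V : Type*} [Fintype E] [DecidableEq E] [DecidableEq V]

/-- the edges meeting `W` -/
def touch (vs : E → Finset V) (W : Finset V) : Finset E :=
  univ.filter (fun e => (vs e ∩ W).Nonempty)

/-- the edges containing `v` -/
def star (vs : E → Finset V) (v : V) : Finset E := univ.filter (fun e => v ∈ vs e)

/-- the sets of edges whose only vertex in `W` is `v`, with degree of `v` between `1` and `k` -/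
def cls (vs : E → Finset V) (k : ℕ) (W : Finset V) (v : V) : Finset (Finset E) :=
  univ.filter (fun S => (∀ e ∈ S, vs e ∩ W ⊆ {v}) ∧ 1 ≤ (S ∩ star vs v).card ∧
    (S ∩ star vs v).card ≤ k)

/-- the corresponding part of `f` -/
noncomputable def part (p : ℝ) (f : (E → Bool) → ℝ) (vs : E → Finset V) (k : ℕ) (W : Finset V)
    (v : V) (x : E → Bool) : ℝ := ∑ S ∈ cls vs k W v, coef p f S * chi p S x

/-- the star derivative -/
noncomputable def del (p : ℝ) (f : (E → Bool) → ℝ) (vs : E → Finset V) (v : V)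
    (x : E → Bool) : ℝ := f x - avg p (star vs v) f x

theorem mem_star {vs : E → Finset V} {v : V} {e : E} : e ∈ star vs v ↔ v ∈ vs e := by
  unfold star; simp

theorem mem_touch {vs : E → Finset V} {W : Finset V} {e : E} :
    e ∈ touch vs W ↔ (vs e ∩ W).Nonempty := by
  unfold touch; simp

theorem star_subset_touch {vs : E → Finset V} {W : Finset V} {v : V} (hv : v ∈ W) :
    star vs v ⊆ touch vs W := by
  intro e he
  rw [mem_touch]
  exact ⟨v, mem_inter.2 ⟨mem_star.1 he, hv⟩⟩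

theorem inter_touch {vs : E → Finset V} {k : ℕ} {W : Finset V} {v : V} (hv : v ∈ W)
    {S : Finset E} (hS : S ∈ cls vs k W v) : S ∩ touch vs W = S ∩ star vs v := by
  have h1 := (mem_filter.1 hS).2.1
  ext e
  simp only [mem_inter]
  constructor
  · rintro ⟨he, hD⟩
    refine ⟨he, mem_star.2 ?_⟩
    obtain ⟨u, hu⟩ := mem_touch.1 hD
    have := h1 e he hu
    rw [mem_singleton] at this
    subst this
    exact (mem_inter.1 hu).1
  · rintro ⟨he, hs⟩
    exact ⟨he, star_subset_touch hv hs⟩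

theorem cls_inter_nonempty {vs : E → Finset V} {k : ℕ} {W : Finset V} {v : V}
    {S : Finset E} (hS : S ∈ cls vs k W v) : (S ∩ star vs v) ≠ ∅ := by
  have h1 := (mem_filter.1 hS).2.2.1
  intro h
  rw [h, card_empty] at h1
  omega

theorem part_mix {p : ℝ} (f : (E → Bool) → ℝ) (vs : E → Finset V) (k : ℕ) {W : Finset V}
    {v : V} (hv : v ∈ W) (x y : E → Bool) :
    part p f vs k W v (mix (touch vs W) x y)
      = ∑ S ∈ cls vs k W v, (coef p f S * chi p (S \ touch vs W) x)
          * chi p (S ∩ star vs v) y := by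
  unfold part
  refine sum_congr rfl fun S hS => ?_
  rw [chi_mix, inter_touch hv hS]
  ring

/-- cross terms vanish -/
theorem avg_part_mul_part {p : ℝ} (hp0 : 0 < p) (hp1 : p < 1) (f : (E → Bool) → ℝ)
    (vs : E → Finset V) (k : ℕ) {W : Finset V} {v v' : V} (hv : v ∈ W) (hv' : v' ∈ W)
    (hne : v ≠ v') (x : E → Bool) :
    avg p (touch vs W) (fun z => part p f vs k W v z * part p f vs k W v' z) x = 0 := by
  unfold avg
  have h1 : ∀ y : E → Bool, part p f vs k W v (mix (touch vs W) x y)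
      * part p f vs k W v' (mix (touch vs W) x y)
      = ∑ S ∈ cls vs k W v, ∑ S' ∈ cls vs k W v',
        ((coef p f S * chi p (S \ touch vs W) x) * (coef p f S' * chi p (S' \ touch vs W) x))
          * (chi p (S ∩ star vs v) y * chi p (S' ∩ star vs v') y) := by
    intro y
    rw [part_mix f vs k hv, part_mix f vs k hv', sum_mul_sum]
    refine sum_congr rfl fun S _ => sum_congr rfl fun S' _ => ?_
    ring
  simp_rw [h1]
  rw [Ex_sum]
  refine sum_eq_zero fun S hS => ?_
  rw [Ex_sum]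
  refine sum_eq_zero fun S' hS' => ?_
  rw [Ex_const_mul, Ex_chi_mul hp0 hp1, if_neg, mul_zero]
  intro heq
  obtain ⟨e, he⟩ := nonempty_iff_ne_empty.2 (cls_inter_nonempty hS)
  have he' : e ∈ S' ∩ star vs v' := heq ▸ he
  have h2 := (mem_filter.1 hS').2.1 e (mem_inter.1 he').1
  have h3 : v ∈ vs e ∩ W := mem_inter.2 ⟨mem_star.1 (mem_inter.1 he).2, hv⟩
  have h4 := h2 h3
  rw [mem_singleton] at h4
  exact hne h4

/-- the low part has no mean over the star -/
theorem avg_mul_part {p : ℝ} (hp0 : 0 < p) (hp1 : p < 1) (f g : (E → Bool) → ℝ)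
    (vs : E → Finset V) (k : ℕ) {W : Finset V} {v : V} (hv : v ∈ W)
    (hg : ∀ x y, g (mix (star vs v) x y) = g x) (x : E → Bool) :
    avg p (touch vs W) (fun z => g z * part p f vs k W v z) x = 0 := by
  rw [← avg_avg_of_subset p (star_subset_touch hv)]
  have h1 : ∀ z, avg p (star vs v) (fun z => g z * part p f vs k W v z) z = 0 := by
    intro z
    rw [avg_mul_of_indep p (star vs v) g _ hg]
    have h2 : avg p (star vs v) (part p f vs k W v) z
        = ∑ S ∈ cls vs k W v, coef p f S * avg p (star vs v) (chi p S) z := by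
      unfold avg part
      rw [Ex_sum]
      exact sum_congr rfl fun S _ => by rw [Ex_const_mul]
    rw [h2]
    rw [sum_eq_zero, mul_zero]
    intro S hS
    rw [avg_chi hp0 hp1, if_neg (cls_inter_nonempty hS), mul_zero]
  unfold avg at h1 ⊢
  have h3 : ∀ y : E → Bool, Ex p (fun y_1 => g (mix (star vs v) (mix (touch vs W) x y) y_1)
      * part p f vs k W v (mix (star vs v) (mix (touch vs W) x y) y_1)) = 0 := fun y => h1 _
  simp only [h3]
  exact Ex_const p 0

/-- the interpolation between the two bounds -/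
theorem real_comb {n B κ A c θ u : ℝ} (_hn : 0 ≤ n) (hκ0 : 0 ≤ κ) (hA0 : 0 ≤ A)
    (hθ0 : 0 ≤ θ) (hc2 : c ^ 2 = κ ^ 3 * B) (hi : u ^ 2 ≤ A) (hu2 : u ^ 2 ≤ n * (c * A))
    (hθ : n ^ 2 * B ≤ θ ^ 3) : u ^ 2 ≤ θ * κ * A := by
  have hu6 : (u ^ 2) ^ 3 ≤ (θ * κ * A) ^ 3 := by
    have h1 : (u ^ 2) ^ 2 ≤ (n * (c * A)) ^ 2 := pow_le_pow_left₀ (sq_nonneg _) hu2 2
    have h2 : 0 ≤ (n * (c * A)) ^ 2 := sq_nonneg _
    calc (u ^ 2) ^ 3 = (u ^ 2) ^ 2 * u ^ 2 := by ring
      _ ≤ (n * (c * A)) ^ 2 * A := mul_le_mul h1 hi (sq_nonneg _) h2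
      _ = n ^ 2 * c ^ 2 * A ^ 3 := by ring
      _ = (n ^ 2 * B) * (κ ^ 3 * A ^ 3) := by rw [hc2]; ring
      _ ≤ θ ^ 3 * (κ ^ 3 * A ^ 3) := mul_le_mul_of_nonneg_right hθ (by positivity)
      _ = (θ * κ * A) ^ 3 := by ring
  exact le_of_pow_le_pow_left₀ (by norm_num) (by positivity) hu6

section core

variable {p : ℝ} (hp0 : 0 < p) (hp1 : p < 1) (f : (E → Bool) → ℝ) (hf : ∀ x, f x = 0 ∨ f x = 1)
  (vs : E → Finset V) (k : ℕ)
  (hyp : ∀ h : (E → Bool) → ℝ, (∀ S : Finset E, k < S.card → coef p h S = 0) →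
    Ex p (fun x => h x ^ 4) ≤ (4 / (p * (1 - p))) ^ k * (Ex p (fun x => h x ^ 2)) ^ 2)

include hp0 hp1 hf in
omit [DecidableEq V] in
theorem avg_mem (D : Finset E) (x : E → Bool) : 0 ≤ avg p D f x ∧ avg p D f x ≤ 1 := by
  have h0 : ∀ x, 0 ≤ f x := fun x => by rcases hf x with h | h <;> rw [h]; norm_num
  have h1 : ∀ x, f x ≤ 1 := fun x => by rcases hf x with h | h <;> rw [h]; norm_num
  constructor
  · exact Ex_nonneg hp0.le hp1.le fun y => h0 _
  · have := Ex_mono hp0.le hp1.le (f := fun y => f (mix D x y)) (g := fun _ => 1)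
      (fun y => h1 _)
    rw [Ex_one] at this
    exact this

include hp0 hp1 hf in
theorem abs_del_le (v : V) (x : E → Bool) : |del p f vs v x| ≤ 1 := by
  have h := avg_mem hp0 hp1 f hf (star vs v) x
  unfold del
  rw [abs_le]
  rcases hf x with h1 | h1 <;> rw [h1] <;> constructor <;> linarith [h.1, h.2]

include hp0 hp1 hyp in
theorem avg_part_four {W : Finset V} {v : V} (hv : v ∈ W) (x : E → Bool) :
    avg p (touch vs W) (fun z => part p f vs k W v z ^ 4) x
      ≤ (4 / (p * (1 - p))) ^ k * (avg p (touch vs W) (fun z => part p f vs k W v z ^ 2) x) ^ 2 := by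
  unfold avg
  refine hyp (fun y => part p f vs k W v (mix (touch vs W) x y)) fun S hS => ?_
  unfold coef
  have h1 : ∀ y : E → Bool, part p f vs k W v (mix (touch vs W) x y) * chi p S y
      = ∑ T ∈ cls vs k W v, (coef p f T * chi p (T \ touch vs W) x)
          * (chi p (T ∩ star vs v) y * chi p S y) := by
    intro y
    rw [part_mix f vs k hv, sum_mul]
    exact sum_congr rfl fun T _ => by ring
  simp_rw [h1]
  rw [Ex_sum]
  refine sum_eq_zero fun T hT => ?_
  rw [Ex_const_mul, Ex_chi_mul hp0 hp1, if_neg, mul_zero]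
  intro heq
  have := (mem_filter.1 hT).2.2.2
  rw [heq] at this
  omega

include hp0 hp1 in
theorem Ex_f_part (W : Finset V) (v : V) :
    Ex p (fun x => f x * part p f vs k W v x) = ∑ S ∈ cls vs k W v, coef p f S ^ 2 := by
  have h1 : ∀ x : E → Bool, f x * part p f vs k W v x
      = ∑ S ∈ cls vs k W v, coef p f S * (f x * chi p S x) := by
    intro x
    unfold part
    rw [mul_sum]
    exact sum_congr rfl fun S _ => by ring
  simp_rw [h1]
  rw [Ex_sum]
  refine sum_congr rfl fun S _ => ?_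
  rw [Ex_const_mul, sq]
  rfl

include hp0 hp1 in
theorem Ex_part_sq (W : Finset V) (v : V) :
    Ex p (fun x => part p f vs k W v x ^ 2) = ∑ S ∈ cls vs k W v, coef p f S ^ 2 := by
  unfold part
  rw [Ex_partial_sq hp0 hp1]

include hp0 hp1 hf in
/-- replacing `f` by its star derivative -/
theorem abs_avg_f_part_le {W : Finset V} {v : V} (hv : v ∈ W) (x : E → Bool) :
    |avg p (touch vs W) (fun z => f z * part p f vs k W v z) x|
      ≤ avg p (touch vs W) (fun z => |del p f vs v z| * |part p f vs k W v z|) x := by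
  have h1 : avg p (touch vs W) (fun z => f z * part p f vs k W v z) x
      = avg p (touch vs W) (fun z => del p f vs v z * part p f vs k W v z) x := by
    have h2 := avg_mul_part hp0 hp1 f (avg p (star vs v) f) vs k hv
      (fun x y => avg_mix p (star vs v) f x y) x
    have h3 : avg p (touch vs W) (fun z => del p f vs v z * part p f vs k W v z) x
        = avg p (touch vs W) (fun z => f z * part p f vs k W v z) x
          - avg p (touch vs W) (fun z => avg p (star vs v) f z * part p f vs k W v z) x := by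
      unfold avg
      rw [← Ex_sub]
      refine Ex_congr fun y => ?_
      unfold del avg
      ring
    rw [h3, h2, sub_zero]
  rw [h1]
  unfold avg Ex
  refine (abs_sum_le_sum_abs _ _).trans (sum_le_sum fun y _ => ?_)
  rw [abs_mul, abs_mul, abs_of_nonneg (wt_nonneg hp0.le hp1.le y)]

include hp0 hp1 hf hyp in
/-- the core pointwise inequality -/
theorem core_pointwise {W : Finset V} (κ : ℝ) (x : E → Bool)
    (hκ : ∀ v ∈ W, avg p (touch vs W) (fun z => |del p f vs v z|) x = κ) (hκ0 : 0 ≤ κ)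
    (θ : ℝ) (hθ0 : 0 ≤ θ) (hθ : (W.card : ℝ) ^ 2 * (4 / (p * (1 - p))) ^ k ≤ θ ^ 3) :
    (avg p (touch vs W) (fun z => f z * ∑ v ∈ W, part p f vs k W v z) x) ^ 2
      ≤ θ * κ * avg p (touch vs W) (fun z => (∑ v ∈ W, part p f vs k W v z) ^ 2) x := by
  set D := touch vs W with hD
  set B : ℝ := (4 / (p * (1 - p))) ^ k with hB
  have hpq := pq_pos hp0 hp1
  have hB0 : 0 ≤ B := by positivity
  -- notation
  set a : V → ℝ := fun v => avg p D (fun z => part p f vs k W v z ^ 2) x with ha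
  have ha0 : ∀ v, 0 ≤ a v := fun v => Ex_nonneg hp0.le hp1.le fun y => sq_nonneg _
  have hsum : avg p D (fun z => (∑ v ∈ W, part p f vs k W v z) ^ 2) x = ∑ v ∈ W, a v := by
    have h1 : ∀ z : E → Bool, (∑ v ∈ W, part p f vs k W v z) ^ 2
        = ∑ v ∈ W, ∑ v' ∈ W, part p f vs k W v z * part p f vs k W v' z := fun z => by
      rw [sq, sum_mul_sum]
    have h2 : avg p D (fun z => (∑ v ∈ W, part p f vs k W v z) ^ 2) x
        = ∑ v ∈ W, ∑ v' ∈ W, avg p D (fun z => part p f vs k W v z * part p f vs k W v' z) x := by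
      simp_rw [h1]
      unfold avg
      rw [Ex_sum]
      exact sum_congr rfl fun v _ => by rw [Ex_sum]
    rw [h2]
    refine sum_congr rfl fun v hv => ?_
    rw [sum_eq_single_of_mem v hv]
    · unfold a avg
      exact Ex_congr fun y => by simp only [sq]
    · intro v' hv' hne
      exact avg_part_mul_part hp0 hp1 f vs k hv hv' (Ne.symm hne) x
  set A : ℝ := ∑ v ∈ W, a v with hA
  have hA0 : 0 ≤ A := sum_nonneg fun v _ => ha0 v
  set u : ℝ := avg p D (fun z => f z * ∑ v ∈ W, part p f vs k W v z) x with hu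
  rw [hsum]
  -- (i)
  have hi : u ^ 2 ≤ A := by
    have h1 := Ex_mul_sq_le hp0.le hp1.le (fun y => f (mix D x y))
      (fun y => ∑ v ∈ W, part p f vs k W v (mix D x y))
    have h2 : Ex p (fun y => f (mix D x y) ^ 2) ≤ 1 := by
      have := Ex_mono hp0.le hp1.le (f := fun y => f (mix D x y) ^ 2) (g := fun _ => 1)
        (fun y => by rcases hf (mix D x y) with h | h <;> rw [h] <;> norm_num)
      rw [Ex_one] at this
      exact this
    have h3 : Ex p (fun y => (∑ v ∈ W, part p f vs k W v (mix D x y)) ^ 2) = A := hsum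
    rw [h3] at h1
    calc u ^ 2 ≤ Ex p (fun y => f (mix D x y) ^ 2) * A := h1
      _ ≤ 1 * A := mul_le_mul_of_nonneg_right h2 hA0
      _ = A := one_mul _
  -- (ii)
  set w : V → ℝ := fun v => avg p D (fun z => |del p f vs v z| * |part p f vs k W v z|) x with hw
  have hw0 : ∀ v, 0 ≤ w v := fun v => Ex_nonneg hp0.le hp1.le fun y =>
    mul_nonneg (abs_nonneg _) (abs_nonneg _)
  have hw4 : ∀ v ∈ W, w v ^ 4 ≤ κ ^ 3 * (B * a v ^ 2) := by
    intro v hv
    have h1 := Ex_mul_abs_pow_four_le hp0.le hp1.le (fun y => |del p f vs v (mix D x y)|)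
      (fun y => part p f vs k W v (mix D x y)) (fun y => abs_nonneg _)
      (fun y => abs_del_le hp0 hp1 f hf vs v _)
    have h2 : Ex p (fun y => |del p f vs v (mix D x y)|) = κ := hκ v hv
    have h3 := avg_part_four hp0 hp1 f vs k hyp hv x
    rw [h2] at h1
    exact h1.trans (mul_le_mul_of_nonneg_left h3 (by positivity))
  set c : ℝ := Real.sqrt (κ ^ 3 * B) with hc
  have hc0 : 0 ≤ c := Real.sqrt_nonneg _
  have hc2 : c ^ 2 = κ ^ 3 * B := Real.sq_sqrt (by positivity)
  have hw2 : ∀ v ∈ W, w v ^ 2 ≤ c * a v := by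
    intro v hv
    have h1 : (w v ^ 2) ^ 2 ≤ (c * a v) ^ 2 := by
      calc (w v ^ 2) ^ 2 = w v ^ 4 := by ring
        _ ≤ κ ^ 3 * (B * a v ^ 2) := hw4 v hv
        _ = (c * a v) ^ 2 := by rw [mul_pow, hc2]; ring
    exact le_of_sq_le_sq h1 (mul_nonneg hc0 (ha0 v))
  have hu1 : |u| ≤ ∑ v ∈ W, w v := by
    have h1 : u = ∑ v ∈ W, avg p D (fun z => f z * part p f vs k W v z) x := by
      rw [hu]
      unfold avg
      rw [← Ex_sum]
      exact Ex_congr fun y => by simp only [mul_sum]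
    rw [h1]
    refine (abs_sum_le_sum_abs _ _).trans (sum_le_sum fun v hv => ?_)
    exact abs_avg_f_part_le hp0 hp1 f hf vs k hv x
  have hu2 : u ^ 2 ≤ W.card * (c * A) := by
    have h1 : u ^ 2 ≤ (∑ v ∈ W, w v) ^ 2 := by
      rw [← sq_abs u]
      exact pow_le_pow_left₀ (abs_nonneg _) hu1 2
    have h2 : (∑ v ∈ W, w v) ^ 2 ≤ W.card * ∑ v ∈ W, w v ^ 2 := sq_sum_le_card_mul_sum_sq
    have h3 : ∑ v ∈ W, w v ^ 2 ≤ c * A := by
      rw [hA, mul_sum]
      exact sum_le_sum hw2
    calc u ^ 2 ≤ W.card * ∑ v ∈ W, w v ^ 2 := h1.trans h2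
      _ ≤ W.card * (c * A) := mul_le_mul_of_nonneg_left h3 (Nat.cast_nonneg _)
  exact real_comb (Nat.cast_nonneg _) hκ0 hA0 hθ0 hc2 hi hu2 hθ

include hp0 hp1 hf hyp in
/-- the core inequality for a fixed set of vertices -/
theorem core_bound {W : Finset V}
    (hκ : ∀ v ∈ W, ∀ v' ∈ W, ∀ x, avg p (touch vs W) (fun z => |del p f vs v z|) x
      = avg p (touch vs W) (fun z => |del p f vs v' z|) x)
    (θ : ℝ) (hθ0 : 0 ≤ θ) (hθ : (W.card : ℝ) ^ 2 * (4 / (p * (1 - p))) ^ k ≤ θ ^ 3)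
    (τ : ℝ) (hτ0 : 0 ≤ τ) (hτ : ∀ v ∈ W, Ex p (fun x => |del p f vs v x|) ≤ τ) :
    ∑ v ∈ W, ∑ S ∈ cls vs k W v, coef p f S ^ 2 ≤ θ * τ := by
  rcases W.eq_empty_or_nonempty with hW | ⟨v0, hv0⟩
  · rw [hW, sum_empty]
    exact mul_nonneg hθ0 hτ0
  set D := touch vs W with hD
  set G : (E → Bool) → ℝ := fun z => ∑ v ∈ W, part p f vs k W v z with hG
  set A : ℝ := ∑ v ∈ W, ∑ S ∈ cls vs k W v, coef p f S ^ 2 with hA
  have hA0 : 0 ≤ A := sum_nonneg fun v _ => sum_nonneg fun S _ => sq_nonneg _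
  set κ : (E → Bool) → ℝ := fun x => avg p D (fun z => |del p f vs v0 z|) x with hκdef
  have hκ0 : ∀ x, 0 ≤ κ x := fun x => Ex_nonneg hp0.le hp1.le fun y => abs_nonneg _
  set u : (E → Bool) → ℝ := fun x => avg p D (fun z => f z * G z) x with hu
  set a : (E → Bool) → ℝ := fun x => avg p D (fun z => G z ^ 2) x with ha
  have ha0 : ∀ x, 0 ≤ a x := fun x => Ex_nonneg hp0.le hp1.le fun y => sq_nonneg _
  have hpt : ∀ x, u x ^ 2 ≤ θ * κ x * a x := fun x =>
    core_pointwise hp0 hp1 f hf vs k hyp (κ x) x (fun v hv => hκ v hv v0 hv0 x) (hκ0 x) θ hθ0 hθ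
  have hEu : Ex p u = A := by
    have h1 : Ex p u = Ex p (fun z => f z * G z) := Ex_avg p D _
    rw [h1]
    have h2 : ∀ z, f z * G z = ∑ v ∈ W, f z * part p f vs k W v z := fun z => by
      rw [hG, mul_sum]
    simp_rw [h2]
    rw [Ex_sum]
    exact sum_congr rfl fun v _ => Ex_f_part hp0 hp1 f vs k W v
  have hEa : Ex p a = A := by
    have h1 : ∀ x, a x = ∑ v ∈ W, avg p D (fun z => part p f vs k W v z ^ 2) x := by
      intro x
      have h1 : ∀ z : E → Bool, G z ^ 2
          = ∑ v ∈ W, ∑ v' ∈ W, part p f vs k W v z * part p f vs k W v' z := fun z => by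
        rw [hG, sq, sum_mul_sum]
      have h2 : a x = ∑ v ∈ W, ∑ v' ∈ W,
          avg p D (fun z => part p f vs k W v z * part p f vs k W v' z) x := by
        rw [ha]
        simp_rw [h1]
        unfold avg
        rw [Ex_sum]
        exact sum_congr rfl fun v _ => by rw [Ex_sum]
      rw [h2]
      refine sum_congr rfl fun v hv => ?_
      rw [sum_eq_single_of_mem v hv]
      · unfold avg
        exact Ex_congr fun y => by simp only [sq]
      · intro v' hv' hne
        exact avg_part_mul_part hp0 hp1 f vs k hv hv' (Ne.symm hne) x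
    have h2 : Ex p a = ∑ v ∈ W, Ex p (fun z => part p f vs k W v z ^ 2) := by
      have h3 : Ex p a
          = Ex p (fun x => ∑ v ∈ W, avg p D (fun z => part p f vs k W v z ^ 2) x) :=
        Ex_congr h1
      rw [h3, Ex_sum]
      exact sum_congr rfl fun v _ => Ex_avg p D _
    rw [h2]
    exact sum_congr rfl fun v _ => Ex_part_sq hp0 hp1 f vs k W v
  have hEκ : Ex p κ ≤ τ := by
    have h1 : Ex p κ = Ex p (fun z => |del p f vs v0 z|) := Ex_avg p D _
    rw [h1]
    exact hτ v0 hv0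
  -- Cauchy-Schwarz
  have hCS : A ^ 2 ≤ θ * τ * A := by
    have h1 := Ex_mul_sq_le hp0.le hp1.le (fun x => Real.sqrt (θ * κ x))
      (fun x => Real.sqrt (a x))
    have h2 : Ex p (fun x => Real.sqrt (θ * κ x) ^ 2) = θ * Ex p κ := by
      rw [← Ex_const_mul]
      exact Ex_congr fun x => Real.sq_sqrt (mul_nonneg hθ0 (hκ0 x))
    have h3 : Ex p (fun x => Real.sqrt (a x) ^ 2) = A := by
      rw [← hEa]
      exact Ex_congr fun x => Real.sq_sqrt (ha0 x)
    rw [h2, h3] at h1
    have h4 : A ≤ Ex p (fun x => Real.sqrt (θ * κ x) * Real.sqrt (a x)) := by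
      rw [← hEu]
      refine Ex_mono hp0.le hp1.le fun x => ?_
      rw [← Real.sqrt_mul (mul_nonneg hθ0 (hκ0 x))]
      exact Real.le_sqrt_of_sq_le (hpt x)
    calc A ^ 2 ≤ (Ex p (fun x => Real.sqrt (θ * κ x) * Real.sqrt (a x))) ^ 2 :=
          pow_le_pow_left₀ hA0 h4 2
      _ ≤ θ * Ex p κ * A := h1
      _ ≤ θ * τ * A := mul_le_mul_of_nonneg_right (mul_le_mul_of_nonneg_left hEκ hθ0) hA0
  rcases hA0.eq_or_lt with h0 | h0
  · rw [← h0]
    exact mul_nonneg hθ0 hτ0
  · rw [sq] at hCS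
    exact le_of_mul_le_mul_right hCS h0

end core

end Vale.Agent.P063
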