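import Mathlib

/-!
# P063: the p-biased cube (basic definitions)
-/

namespace Vale.Agent.P063

open Finset

variable {E : Type*} [Fintype E] [DecidableEq E]

/-- the `p`-biased product weight -/
noncomputable def wt (p : ℝ) (x : E → Bool) : ℝ := ∏ e, (if x e then p else 1 - p)

/-- the `p`-biased expectation -/
noncomputable def Ex (p : ℝ) (f : (E → Bool) → ℝ) : ℝ := ∑ x, wt p x * f x

/-- the point with the coordinates in `D` of `y` and the others of `x` -/
def mix (D : Finset E) (x y : E → Bool) : E → Bool := fun e => if e ∈ D then y e else x e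

/-- average over the coordinates in `D` -/
noncomputable def avg (p : ℝ) (D : Finset E) (f : (E → Bool) → ℝ) (x : E → Bool) : ℝ :=
  Ex p (fun y => f (mix D x y))

/-- the normalised coordinate function -/
noncomputable def phi (p : ℝ) (b : Bool) : ℝ :=
  ((if b then 1 else 0) - p) / Real.sqrt (p * (1 - p))

/-- the characters -/
noncomputable def chi (p : ℝ) (S : Finset E) (x : E → Bool) : ℝ := ∏ e ∈ S, phi p (x e)

/-- the Fourier coefficients -/
noncomputable def coef (p : ℝ) (f : (E → Bool) → ℝ) (S : Finset E) : ℝ :=
  Ex p (fun x => f x * chi p S x)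

end Vale.Agent.P063
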