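import Vale.Agent.Lib.P063.Hgraph
import Vale.Agent.Lib.P063.Calc

/-!
# P063: the derivative of the probability and the threshold width
-/

namespace Vale.Agent.P063

open Finset

/-- the total influence (expected number of pivotal edges) of an increasing family -/
noncomputable def slope {n r : ℕ} (P : Set (Finset (Hyperedge n r))) (p : ℝ) : ℝ :=
  ∑ e, Ex p (fun x => ind P (Function.update x e true) - ind P (Function.update x e false))

theorem hasDerivAt_prob {n r : ℕ} (P : Set (Finset (Hyperedge n r))) (p : ℝ) :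
    HasDerivAt (prob P) (slope P p) p := by
  have h1 : prob P = fun p => Ex p (ind P) := funext fun p => prob_eq P p
  rw [h1]
  exact russo (ind P) p

theorem ind_update_le {n r : ℕ} {P : Set (Finset (Hyperedge n r))} (hP : IsIncreasing P)
    (x : Hyperedge n r → Bool) (e : Hyperedge n r) :
    ind P (Function.update x e false) ≤ ind P (Function.update x e true) := by
  have hsub : toG (Function.update x e false) ⊆ toG (Function.update x e true) := by
    intro a ha
    rw [mem_toG] at ha ⊢
    by_cases h : a = e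
    · subst h; simp
    · rw [Function.update_of_ne h] at ha ⊢
      exact ha
  unfold ind
  by_cases h : toG (Function.update x e false) ∈ P
  · rw [if_pos h, if_pos (hP _ _ h hsub)]
  · rw [if_neg h]
    split_ifs <;> norm_num

theorem slope_nonneg {n r : ℕ} {P : Set (Finset (Hyperedge n r))} (hP : IsIncreasing P)
    {p : ℝ} (hp0 : 0 ≤ p) (hp1 : p ≤ 1) : 0 ≤ slope P p := by
  unfold slope
  refine sum_nonneg fun e _ => Ex_nonneg hp0 hp1 fun x => ?_
  linarith [ind_update_le hP x e]

theorem sum_card_coef {n r : ℕ} {P : Set (Finset (Hyperedge n r))} (hP : IsIncreasing P)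
    {p : ℝ} (hp0 : 0 < p) (hp1 : p < 1) :
    ∑ S : Finset (Hyperedge n r), (S.card : ℝ) * coef p (ind P) S ^ 2
      = p * (1 - p) * slope P p := by
  have h1 : ∀ S : Finset (Hyperedge n r), (S.card : ℝ) * coef p (ind P) S ^ 2
      = ∑ e : Hyperedge n r, if e ∈ S then coef p (ind P) S ^ 2 else 0 := by
    intro S
    rw [← sum_filter, sum_const, nsmul_eq_mul]
    have h0 : univ.filter (fun e => e ∈ S) = S := by
      ext e
      simp
    rw [h0]
  simp_rw [h1]
  rw [sum_comm]
  unfold slope
  rw [mul_sum]
  refine sum_congr rfl fun e _ => ?_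
  rw [← sum_filter, sum_coef_sq_mem p hp0 hp1]
  congr 1
  refine Ex_congr fun x => ?_
  have h2 := ind_update_le hP x e
  rcases ind_zero_or_one P (Function.update x e true) with h3 | h3 <;>
    rcases ind_zero_or_one P (Function.update x e false) with h4 | h4
  · rw [h3, h4]; norm_num
  · rw [h3, h4] at h2; norm_num at h2
  · rw [h3, h4]; norm_num
  · rw [h3, h4]; norm_num

theorem prob_zero {n r : ℕ} {P : Set (Finset (Hyperedge n r))} (hP : IsIncreasing P)
    (hne : P ≠ Set.univ) : prob P 0 = 0 := by
  have hempty : ∅ ∉ P := by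
    intro h
    apply hne
    ext G
    simp only [Set.mem_univ, iff_true]
    exact hP ∅ G h (empty_subset G)
  unfold prob
  refine sum_eq_zero fun G _ => ?_
  by_cases hG : G ∈ P
  · rw [if_pos hG]
    have : G.card ≠ 0 := fun h => hempty ((card_eq_zero.1 h) ▸ hG)
    rw [zero_pow this, zero_mul]
  · rw [if_neg hG]

theorem prob_one {n r : ℕ} {P : Set (Finset (Hyperedge n r))} (hP : IsIncreasing P)
    (hne : P.Nonempty) : prob P 1 = 1 := by
  obtain ⟨G0, hG0⟩ := hne
  have huniv : (univ : Finset (Hyperedge n r)) ∈ P := hP G0 univ hG0 (subset_univ _)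
  unfold prob
  rw [sum_eq_single_of_mem (univ : Finset (Hyperedge n r)) (mem_univ _)]
  · rw [if_pos huniv]
    simp
  · intro G _ hG
    by_cases h : G ∈ P
    · rw [if_pos h, sub_self]
      have h1 : G.card < Fintype.card (Hyperedge n r) := by
        rw [← card_univ]
        exact card_lt_card (ssubset_univ_iff.2 hG)
      rw [zero_pow (by omega), mul_zero]
    · rw [if_neg h]

theorem continuous_prob {n r : ℕ} (P : Set (Finset (Hyperedge n r))) : Continuous (prob P) :=
  continuous_iff_continuousAt.2 fun p => (hasDerivAt_prob P p).continuousAt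

theorem monotone_prob {n r : ℕ} {P : Set (Finset (Hyperedge n r))} (hP : IsIncreasing P) :
    MonotoneOn (prob P) (Set.Icc 0 1) := by
  refine monotoneOn_of_deriv_nonneg (convex_Icc 0 1) (continuous_prob P).continuousOn
    (fun p _ => (hasDerivAt_prob P p).differentiableAt.differentiableWithinAt) fun p hp => ?_
  rw [interior_Icc] at hp
  rw [(hasDerivAt_prob P p).deriv]
  exact slope_nonneg hP hp.1.le hp.2.le

/-- the threshold width of increasing hypergraph properties -/
theorem width_main (r : ℕ) (hr : 2 ≤ r) (ε : ℝ) (hε : 0 < ε) (hε2 : ε < 1 / 2) :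
    ∃ C : ℝ, 0 < C ∧ ∀ n : ℕ, r ≤ n → ∀ P : Set (Finset (Hyperedge n r)),
      IsInvariant P → IsIncreasing P → P.Nonempty → P ≠ Set.univ →
      thr P (1 - ε) - thr P ε ≤ C / Real.log n ^ ((r : ℝ) / (r - 1)) := by
  obtain ⟨c, hc, hmain⟩ := main_ineq r hr
  have hr2 : (2 : ℝ) ≤ r := by exact_mod_cast hr
  have hr1 : (0 : ℝ) < r - 1 := by linarith
  have hs : 1 < (r : ℝ) / (r - 1) := by rw [lt_div_iff₀ hr1]; linarith
  have hs2 : (r : ℝ) / (r - 1) ≤ 2 := by rw [div_le_iff₀ hr1]; linarith
  obtain ⟨C, hC⟩ := width_bound ((r : ℝ) / (r - 1)) c ε hs hs2 hc hε hε2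
  refine ⟨max C 1, lt_max_of_lt_right one_pos, ?_⟩
  intro n hn P hinv hinc hne huniv
  have hn2 : (2 : ℝ) ≤ n := by exact_mod_cast hr.trans hn
  have hlog : Real.log 2 ≤ Real.log n := Real.log_le_log (by norm_num) hn2
  have hlog0 : 0 < Real.log n := lt_of_lt_of_le (Real.log_pos (by norm_num)) hlog
  have h := hC (Real.log n) (prob P) (slope P) hlog (prob_zero hinc huniv) (prob_one hinc hne)
    (continuous_prob P).continuousOn (monotone_prob hinc) (fun p _ _ => hasDerivAt_prob P p)
    (fun p hp0 hp1 hlogp => by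
      rw [← sum_card_coef hinc hp0 hp1]
      exact hmain n P hinv p hp0 hp1 hlogp)
  refine h.trans ?_
  exact div_le_div_of_nonneg_right (le_max_left _ _) (Real.rpow_nonneg hlog0.le _)

end Vale.Agent.P063
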