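import Vale.Agent.Lib.P063.Defs

/-!
# P063: Fourier expansion on the p-biased cube
-/

namespace Vale.Agent.P063

open Finset

variable {E : Type*} [Fintype E] [DecidableEq E]

/-! ### elementary properties of the expectation -/

theorem wt_nonneg {p : ℝ} (hp0 : 0 ≤ p) (hp1 : p ≤ 1) (x : E → Bool) : 0 ≤ wt p x := by
  unfold wt
  refine prod_nonneg fun e _ => ?_
  split_ifs
  · exact hp0
  · linarith

theorem Ex_add (p : ℝ) (f g : (E → Bool) → ℝ) :
    Ex p (fun x => f x + g x) = Ex p f + Ex p g := by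
  unfold Ex
  rw [← sum_add_distrib]
  exact sum_congr rfl fun x _ => by ring

theorem Ex_sub (p : ℝ) (f g : (E → Bool) → ℝ) :
    Ex p (fun x => f x - g x) = Ex p f - Ex p g := by
  unfold Ex
  rw [← sum_sub_distrib]
  exact sum_congr rfl fun x _ => by ring

theorem Ex_const_mul (p c : ℝ) (f : (E → Bool) → ℝ) :
    Ex p (fun x => c * f x) = c * Ex p f := by
  unfold Ex
  rw [mul_sum]
  exact sum_congr rfl fun x _ => by ring

theorem Ex_mul_const (p c : ℝ) (f : (E → Bool) → ℝ) :
    Ex p (fun x => f x * c) = Ex p f * c := by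
  unfold Ex
  rw [sum_mul]
  exact sum_congr rfl fun x _ => by ring

theorem Ex_sum {I : Type*} (p : ℝ) (s : Finset I) (f : I → (E → Bool) → ℝ) :
    Ex p (fun x => ∑ i ∈ s, f i x) = ∑ i ∈ s, Ex p (f i) := by
  unfold Ex
  rw [sum_comm]
  exact sum_congr rfl fun x _ => by rw [mul_sum]

theorem Ex_mono {p : ℝ} (hp0 : 0 ≤ p) (hp1 : p ≤ 1) {f g : (E → Bool) → ℝ}
    (h : ∀ x, f x ≤ g x) : Ex p f ≤ Ex p g :=
  sum_le_sum fun x _ => mul_le_mul_of_nonneg_left (h x) (wt_nonneg hp0 hp1 x)

theorem Ex_nonneg {p : ℝ} (hp0 : 0 ≤ p) (hp1 : p ≤ 1) {f : (E → Bool) → ℝ}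
    (h : ∀ x, 0 ≤ f x) : 0 ≤ Ex p f :=
  sum_nonneg fun x _ => mul_nonneg (wt_nonneg hp0 hp1 x) (h x)

theorem Ex_congr {p : ℝ} {f g : (E → Bool) → ℝ} (h : ∀ x, f x = g x) : Ex p f = Ex p g := by
  unfold Ex
  exact sum_congr rfl fun x _ => by rw [h x]

/-- the expectation of a product over the coordinates -/
theorem Ex_prod (p : ℝ) (g : E → Bool → ℝ) :
    Ex p (fun x => ∏ e, g e (x e)) = ∏ e, (p * g e true + (1 - p) * g e false) := by
  unfold Ex wt
  have h1 : ∀ x : E → Bool, (∏ e, (if x e then p else 1 - p)) * ∏ e, g e (x e)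
      = ∏ e, ((if x e then p else 1 - p) * g e (x e)) := fun x => by rw [prod_mul_distrib]
  simp_rw [h1]
  have h2 := (Finset.prod_univ_sum (fun _ : E => (univ : Finset Bool))
    (fun e b => (if b then p else 1 - p) * g e b))
  rw [Fintype.piFinset_univ] at h2
  rw [← h2]
  refine prod_congr rfl fun e _ => ?_
  simp

theorem Ex_one (p : ℝ) : Ex (E := E) p (fun _ => 1) = 1 := by
  have h := Ex_prod (E := E) p (fun _ _ => 1)
  simpa using h

theorem Ex_const (p c : ℝ) : Ex (E := E) p (fun _ => c) = c := by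
  have h := Ex_const_mul (E := E) p c (fun _ => 1)
  rw [Ex_one] at h
  simpa using h

/-- Cauchy-Schwarz -/
theorem Ex_mul_sq_le {p : ℝ} (hp0 : 0 ≤ p) (hp1 : p ≤ 1) (f g : (E → Bool) → ℝ) :
    (Ex p (fun x => f x * g x)) ^ 2 ≤ Ex p (fun x => f x ^ 2) * Ex p (fun x => g x ^ 2) := by
  have h := Finset.sum_mul_sq_le_sq_mul_sq (univ : Finset (E → Bool))
    (fun x => Real.sqrt (wt p x) * f x) (fun x => Real.sqrt (wt p x) * g x)
  unfold Ex
  have e1 : ∀ x : E → Bool, Real.sqrt (wt p x) * Real.sqrt (wt p x) = wt p x := fun x =>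
    Real.mul_self_sqrt (wt_nonneg hp0 hp1 x)
  have e2 : ∀ x : E → Bool, Real.sqrt (wt p x) * f x * (Real.sqrt (wt p x) * g x)
      = wt p x * (f x * g x) := fun x => by
    have h1 : Real.sqrt (wt p x) * f x * (Real.sqrt (wt p x) * g x)
      = (Real.sqrt (wt p x) * Real.sqrt (wt p x)) * (f x * g x) := by ring
    rw [h1, e1]
  have e3 : ∀ (h : (E → Bool) → ℝ) (x : E → Bool), (Real.sqrt (wt p x) * h x) ^ 2
      = wt p x * h x ^ 2 := fun h x => by
    have h1 : (Real.sqrt (wt p x) * h x) ^ 2
      = (Real.sqrt (wt p x) * Real.sqrt (wt p x)) * h x ^ 2 := by ring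
    rw [h1, e1]
  simp_rw [e2, e3] at h
  exact h

/-! ### the characters -/

theorem pq_pos {p : ℝ} (hp0 : 0 < p) (hp1 : p < 1) : 0 < p * (1 - p) :=
  mul_pos hp0 (by linarith)

theorem phi_mean {p : ℝ} (_hp0 : 0 < p) (_hp1 : p < 1) :
    p * phi p true + (1 - p) * phi p false = 0 := by
  unfold phi
  simp only [if_true, Bool.false_eq_true, if_false]
  ring

theorem phi_sq {p : ℝ} (hp0 : 0 < p) (hp1 : p < 1) (b : Bool) :
    phi p b ^ 2 = if b then (1 - p) / p else p / (1 - p) := by
  have h := pq_pos hp0 hp1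
  have h1 : (1 - p) ≠ 0 := by linarith
  unfold phi
  rw [div_pow, Real.sq_sqrt h.le]
  cases b
  · simp only [Bool.false_eq_true, if_false]
    field_simp
    ring
  · simp only [if_true]
    field_simp

theorem phi_second {p : ℝ} (hp0 : 0 < p) (hp1 : p < 1) :
    p * (phi p true * phi p true) + (1 - p) * (phi p false * phi p false) = 1 := by
  have h1 := phi_sq hp0 hp1 true
  have h2 := phi_sq hp0 hp1 false
  rw [← sq, ← sq, h1, h2]
  have h3 : (1 - p) ≠ 0 := by linarith
  simp only [if_true, Bool.false_eq_true, if_false]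
  field_simp
  ring

theorem chi_eq_prod_univ (p : ℝ) (S : Finset E) (x : E → Bool) :
    chi p S x = ∏ e, (if e ∈ S then phi p (x e) else 1) := by
  unfold chi
  rw [prod_ite_mem, univ_inter]

theorem Ex_chi_mul {p : ℝ} (hp0 : 0 < p) (hp1 : p < 1) (S T : Finset E) :
    Ex p (fun x => chi p S x * chi p T x) = if S = T then 1 else 0 := by
  have h1 : ∀ x : E → Bool, chi p S x * chi p T x
      = ∏ e, ((if e ∈ S then phi p (x e) else 1) * (if e ∈ T then phi p (x e) else 1)) := by
    intro x
    rw [chi_eq_prod_univ, chi_eq_prod_univ, prod_mul_distrib]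
  simp_rw [h1]
  rw [Ex_prod p (fun e b => (if e ∈ S then phi p b else 1) * (if e ∈ T then phi p b else 1))]
  split_ifs with h
  · subst h
    refine prod_eq_one fun e _ => ?_
    by_cases he : e ∈ S
    · simp only [he, if_true]
      exact phi_second hp0 hp1
    · simp only [he, if_false]
      ring
  · obtain ⟨e, he⟩ : ∃ e, ¬ (e ∈ S ↔ e ∈ T) := by
      by_contra hcon
      push Not at hcon
      exact h (Finset.ext hcon)
    refine prod_eq_zero (mem_univ e) ?_
    have hm := phi_mean hp0 hp1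
    by_cases h1 : e ∈ S
    · have h2 : e ∉ T := fun h2 => he ⟨fun _ => h2, fun _ => h1⟩
      simp only [h1, h2, if_true, if_false, mul_one]
      exact hm
    · have h2 : e ∈ T := by
        by_contra h2
        exact he ⟨fun h => absurd h h1, fun h => absurd h h2⟩
      simp only [h1, h2, if_true, if_false, one_mul]
      exact hm

theorem Ex_chi {p : ℝ} (hp0 : 0 < p) (hp1 : p < 1) (S : Finset E) :
    Ex p (fun x => chi p S x) = if S = ∅ then 1 else 0 := by
  have h := Ex_chi_mul hp0 hp1 S (∅ : Finset E)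
  simpa [chi] using h

theorem kernel {p : ℝ} (hp0 : 0 < p) (hp1 : p < 1) (x y : E → Bool) :
    wt p y * ∑ S : Finset E, chi p S x * chi p S y = if x = y then 1 else 0 := by
  have h1 : ∑ S : Finset E, chi p S x * chi p S y = ∏ e, (1 + phi p (x e) * phi p (y e)) := by
    rw [Finset.prod_one_add]
    rw [Finset.powerset_univ]
    refine sum_congr rfl fun S _ => ?_
    unfold chi
    rw [prod_mul_distrib]
  rw [h1]
  unfold wt
  rw [← prod_mul_distrib]
  have hpq := pq_pos hp0 hp1
  have hs : Real.sqrt (p * (1 - p)) * Real.sqrt (p * (1 - p)) = p * (1 - p) :=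
    Real.mul_self_sqrt hpq.le
  have hs0 : Real.sqrt (p * (1 - p)) ≠ 0 := (Real.sqrt_pos.2 hpq).ne'
  have h3 : (1 - p) ≠ 0 := by linarith
  have hTT : p * (1 + phi p true * phi p true) = 1 := by
    have := phi_sq hp0 hp1 true
    rw [← sq, this]
    simp only [if_true]
    field_simp
    ring
  have hFF : (1 - p) * (1 + phi p false * phi p false) = 1 := by
    have := phi_sq hp0 hp1 false
    rw [← sq, this]
    simp only [Bool.false_eq_true, if_false]
    field_simp
    ring
  have hTF : 1 + phi p true * phi p false = 0 := by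
    unfold phi
    simp only [if_true, Bool.false_eq_true, if_false]
    rw [div_mul_div_comm, hs]
    field_simp
    ring
  split_ifs with h
  · subst h
    refine prod_eq_one fun e _ => ?_
    cases x e
    · simpa using hFF
    · simpa using hTT
  · obtain ⟨e, he⟩ := Function.ne_iff.1 h
    refine prod_eq_zero (mem_univ e) ?_
    have hFT : 1 + phi p false * phi p true = 0 := by rw [mul_comm]; exact hTF
    cases hx : x e <;> cases hy : y e
    · exact absurd (hx.trans hy.symm) he
    · simp [hFT]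
    · simp [hTF]
    · exact absurd (hx.trans hy.symm) he

/-- the Fourier expansion -/
theorem expand {p : ℝ} (hp0 : 0 < p) (hp1 : p < 1) (f : (E → Bool) → ℝ) (x : E → Bool) :
    f x = ∑ S : Finset E, coef p f S * chi p S x := by
  have h1 : ∑ S : Finset E, coef p f S * chi p S x
      = ∑ y, f y * (wt p y * ∑ S : Finset E, chi p S x * chi p S y) := by
    unfold coef Ex
    simp_rw [sum_mul, mul_sum]
    rw [sum_comm]
    refine sum_congr rfl fun y _ => sum_congr rfl fun S _ => ?_
    ring
  rw [h1]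
  simp_rw [kernel hp0 hp1]
  simp

/-- Parseval -/
theorem parseval {p : ℝ} (hp0 : 0 < p) (hp1 : p < 1) (f g : (E → Bool) → ℝ) :
    Ex p (fun x => f x * g x) = ∑ S : Finset E, coef p f S * coef p g S := by
  have h1 : Ex p (fun x => f x * g x)
      = Ex p (fun x => ∑ S : Finset E, coef p f S * (g x * chi p S x)) := by
    refine Ex_congr fun x => ?_
    conv_lhs => rw [expand hp0 hp1 f x]
    rw [sum_mul]
    refine sum_congr rfl fun S _ => ?_
    ring
  rw [h1, Ex_sum]
  refine sum_congr rfl fun S _ => ?_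
  rw [Ex_const_mul]
  rfl

theorem coef_empty (p : ℝ) (f : (E → Bool) → ℝ) : coef p f ∅ = Ex p f := by
  unfold coef chi
  simp

/-! ### averaging -/

theorem mix_mix (D : Finset E) (x y : E → Bool) : mix D (mix D x y) (mix D y x) = x := by
  funext e
  unfold mix
  split_ifs <;> rfl

theorem wt_mix_mul (p : ℝ) (D : Finset E) (x y : E → Bool) :
    wt p (mix D x y) * wt p (mix D y x) = wt p x * wt p y := by
  unfold wt
  rw [← prod_mul_distrib, ← prod_mul_distrib]
  refine prod_congr rfl fun e _ => ?_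
  unfold mix
  by_cases h : e ∈ D
  · simp only [h, if_true]
    ring
  · simp only [h, if_false]

/-- resampling the coordinates in `D` preserves the measure -/
theorem Ex_avg (p : ℝ) (D : Finset E) (f : (E → Bool) → ℝ) : Ex p (avg p D f) = Ex p f := by
  have h0 : Ex p (avg p D f) = ∑ z : (E → Bool) × (E → Bool),
      wt p z.1 * wt p z.2 * f (mix D z.1 z.2) := by
    unfold avg Ex
    rw [Fintype.sum_prod_type]
    refine sum_congr rfl fun x _ => ?_
    rw [mul_sum]
    refine sum_congr rfl fun y _ => ?_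
    ring
  have h1 : ∑ z : (E → Bool) × (E → Bool), wt p z.1 * wt p z.2 * f (mix D z.1 z.2)
      = ∑ z : (E → Bool) × (E → Bool), wt p z.1 * wt p z.2 * f z.1 := by
    let T : (E → Bool) × (E → Bool) ≃ (E → Bool) × (E → Bool) :=
      { toFun := fun z => (mix D z.1 z.2, mix D z.2 z.1)
        invFun := fun z => (mix D z.1 z.2, mix D z.2 z.1)
        left_inv := fun z => by
          refine Prod.ext ?_ ?_
          · exact mix_mix D z.1 z.2
          · exact mix_mix D z.2 z.1
        right_inv := fun z => by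
          refine Prod.ext ?_ ?_
          · exact mix_mix D z.1 z.2
          · exact mix_mix D z.2 z.1 }
    refine Fintype.sum_equiv T _ _ fun z => ?_
    change _ = wt p (mix D z.1 z.2) * wt p (mix D z.2 z.1) * f (mix D z.1 z.2)
    rw [wt_mix_mul]
  rw [h0, h1, Fintype.sum_prod_type]
  unfold Ex
  refine sum_congr rfl fun x _ => ?_
  have h2 : ∑ y : E → Bool, wt p x * wt p y * f x
      = wt p x * f x * ∑ y : E → Bool, wt p y * 1 := by
    rw [mul_sum]
    refine sum_congr rfl fun y _ => ?_
    ring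
  have h3 : ∑ y : E → Bool, wt p y * 1 = 1 := Ex_one (E := E) p
  rw [h2, h3, mul_one]

theorem chi_mix (p : ℝ) (D S : Finset E) (x y : E → Bool) :
    chi p S (mix D x y) = chi p (S \ D) x * chi p (S ∩ D) y := by
  unfold chi
  have h : S = (S \ D) ∪ (S ∩ D) := (sdiff_union_inter S D).symm
  conv_lhs => rw [h]
  rw [prod_union (disjoint_sdiff_inter S D)]
  refine congrArg₂ (· * ·) (prod_congr rfl fun e he => ?_) (prod_congr rfl fun e he => ?_)
  · unfold mix
    rw [if_neg (mem_sdiff.1 he).2]
  · unfold mix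
    rw [if_pos (mem_inter.1 he).2]

end Vale.Agent.P063
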