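import Mathlib
import Vale.Agent.Lib.P063.Defs

/-!
# P063, module HYPER: the (2,4) inequality for the biased cube
-/

namespace Vale.Agent.P063

open Finset

variable {E : Type*} [Fintype E] [DecidableEq E]

namespace Hyper

omit [DecidableEq E] in
theorem wt_nonneg {p : ℝ} (hp0 : 0 ≤ p) (hp1 : p ≤ 1) (x : E → Bool) : 0 ≤ wt p x := by
  unfold wt
  exact prod_nonneg fun e _ => by split_ifs <;> linarith

theorem Ex_add (p : ℝ) (f g : (E → Bool) → ℝ) :
    Ex p (fun x => f x + g x) = Ex p f + Ex p g := by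
  unfold Ex
  rw [← sum_add_distrib]
  exact sum_congr rfl fun x _ => by ring

theorem Ex_const_mul (p c : ℝ) (f : (E → Bool) → ℝ) :
    Ex p (fun x => c * f x) = c * Ex p f := by
  unfold Ex
  rw [mul_sum]
  exact sum_congr rfl fun x _ => by ring

theorem Ex_mono {p : ℝ} (hp0 : 0 ≤ p) (hp1 : p ≤ 1) {f g : (E → Bool) → ℝ} (h : ∀ x, f x ≤ g x) :
    Ex p f ≤ Ex p g :=
  sum_le_sum fun x _ => mul_le_mul_of_nonneg_left (h x) (wt_nonneg hp0 hp1 x)

/-- independence of a coordinate -/
theorem Ex_coord_mul (p : ℝ) (e : E) (φ : Bool → ℝ) (G : (E → Bool) → ℝ)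
    (hG : ∀ x y : E → Bool, (∀ e', e' ≠ e → x e' = y e') → G x = G y) :
    Ex p (fun x => φ (x e) * G x) = (p * φ true + (1 - p) * φ false) * Ex p G := by
  have key : ∀ ψ : Bool → ℝ, Ex p (fun x => ψ (x e) * G x) =
      (p * ψ true + (1 - p) * ψ false) * ∑ y : {e' // e' ≠ e} → Bool,
        (∏ e', (if y e' then p else 1 - p)) * G ((Equiv.funSplitAt e Bool).symm (true, y)) := by
    intro ψ
    unfold Ex
    rw [← Equiv.sum_comp (Equiv.funSplitAt e Bool).symm, Fintype.sum_prod_type, Fintype.sum_bool]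
    have h1 : ∀ (b : Bool) (y : {e' // e' ≠ e} → Bool),
        wt p ((Equiv.funSplitAt e Bool).symm (b, y)) *
          (ψ ((Equiv.funSplitAt e Bool).symm (b, y) e) * G ((Equiv.funSplitAt e Bool).symm (b, y))) =
        ((if b then p else 1 - p) * ψ b) * ((∏ e', (if y e' then p else 1 - p)) *
          G ((Equiv.funSplitAt e Bool).symm (true, y))) := by
      intro b y
      have h2 : (Equiv.funSplitAt e Bool).symm (b, y) e = b := by simp
      have h3 : G ((Equiv.funSplitAt e Bool).symm (b, y)) =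
          G ((Equiv.funSplitAt e Bool).symm (true, y)) := by
        apply hG
        intro e' he'
        simp [he']
      have h4 : wt p ((Equiv.funSplitAt e Bool).symm (b, y)) =
          (if b then p else 1 - p) * ∏ e', (if y e' then p else 1 - p) := by
        unfold wt
        rw [← mul_prod_erase univ _ (mem_univ e), h2]
        congr 1
        rw [← prod_subtype_of_mem (p := fun e' => e' ≠ e)
          (fun e' => if (Equiv.funSplitAt e Bool).symm (b, y) e' then p else 1 - p)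
          (fun e' he' => (mem_erase.1 he').1)]
        have h5 : Finset.subtype (fun e' => e' ≠ e) (univ.erase e) = univ := by
          ext e'
          simp [e'.2]
        rw [h5]
        refine prod_congr rfl fun e' _ => ?_
        have h6 : (Equiv.funSplitAt e Bool).symm (b, y) e'.1 = y e' := by
          simp [e'.2]
        rw [h6]
      rw [h2, h3, h4]
      ring
    simp only [h1]
    rw [← mul_sum, ← mul_sum, ← add_mul]
    simp
  have h1 := key φ
  have h2 := key (fun _ => 1)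
  simp only [one_mul, mul_one] at h2
  have h3 : p + (1 - p) = 1 := by ring
  rw [h3, one_mul] at h2
  rw [h1, ← h2]

/-- Cauchy-Schwarz -/
theorem Ex_cs {p : ℝ} (hp0 : 0 ≤ p) (hp1 : p ≤ 1) (f g : (E → Bool) → ℝ) :
    Ex p (fun x => f x ^ 2 * g x ^ 2) ^ 2 ≤ Ex p (fun x => f x ^ 4) * Ex p (fun x => g x ^ 4) := by
  unfold Ex
  apply sum_sq_le_sum_mul_sum_of_sq_le_mul
  · intro x _
    exact mul_nonneg (wt_nonneg hp0 hp1 x) (by positivity)
  · intro x _
    exact mul_nonneg (wt_nonneg hp0 hp1 x) (by positivity)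
  · intro x _
    apply le_of_eq
    ring

/-- the moments of `phi` -/
theorem m1 (p : ℝ) : p * phi p true + (1 - p) * phi p false = 0 := by
  unfold phi
  simp
  ring

theorem m2 {p : ℝ} (hp0 : 0 < p) (hp1 : p < 1) :
    p * phi p true ^ 2 + (1 - p) * phi p false ^ 2 = 1 := by
  have h : 0 < p * (1 - p) := mul_pos hp0 (by linarith)
  unfold phi
  rw [div_pow, div_pow, Real.sq_sqrt h.le]
  simp only [if_true, Bool.false_eq_true, if_false]
  have hp' : p ≠ 0 := hp0.ne'
  have hq' : 1 - p ≠ 0 := by linarith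
  field_simp
  ring

theorem m3 {p : ℝ} (hp0 : 0 < p) (hp1 : p < 1) :
    |p * phi p true ^ 3 + (1 - p) * phi p false ^ 3| ≤ 1 / Real.sqrt (p * (1 - p)) := by
  have h : 0 < p * (1 - p) := mul_pos hp0 (by linarith)
  have hs : 0 < Real.sqrt (p * (1 - p)) := Real.sqrt_pos.2 h
  have h3 : Real.sqrt (p * (1 - p)) ^ 3 = (p * (1 - p)) * Real.sqrt (p * (1 - p)) := by
    rw [pow_succ, Real.sq_sqrt h.le]
  have h4 : p * phi p true ^ 3 + (1 - p) * phi p false ^ 3 =
      (1 - 2 * p) / Real.sqrt (p * (1 - p)) := by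
    unfold phi
    rw [div_pow, div_pow, h3]
    simp only [if_true, Bool.false_eq_true, if_false]
    have hp' : p ≠ 0 := hp0.ne'
    have hq' : 1 - p ≠ 0 := by linarith
    field_simp
    ring
  rw [h4, abs_div, abs_of_pos hs]
  gcongr
  rw [abs_le]
  constructor <;> linarith

theorem m4 {p : ℝ} (hp0 : 0 < p) (hp1 : p < 1) :
    p * phi p true ^ 4 + (1 - p) * phi p false ^ 4 ≤ 1 / (p * (1 - p)) := by
  have h : 0 < p * (1 - p) := mul_pos hp0 (by linarith)
  have h3 : Real.sqrt (p * (1 - p)) ^ 4 = (p * (1 - p)) ^ 2 := by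
    rw [show 4 = 2 * 2 from rfl, pow_mul, Real.sq_sqrt h.le]
  have h4 : p * phi p true ^ 4 + (1 - p) * phi p false ^ 4 =
      ((1 - p) ^ 3 + p ^ 3) / (p * (1 - p)) := by
    unfold phi
    rw [div_pow, div_pow, h3]
    simp only [if_true, Bool.false_eq_true, if_false]
    have hp' : p ≠ 0 := hp0.ne'
    have hq' : 1 - p ≠ 0 := by linarith
    field_simp
    ring
  rw [h4]
  gcongr
  nlinarith

/-- the two-point step -/
theorem step {A C D F a b m3 m4 σ : ℝ} (hσ : 0 < σ) (hσ2 : σ ≤ 1 / 2) (ha : 0 ≤ a) (hb : 0 ≤ b)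
    (hA : A ≤ a ^ 2) (hF : F ≤ b ^ 2) (_hA0 : 0 ≤ A) (hF0 : 0 ≤ F) (hC : C ^ 2 ≤ A * F)
    (hD : |D| * (4 / σ) ≤ 2 * C + 2 * F / σ ^ 2) (hm3 : |m3| ≤ 1 / σ) (hm4 : m4 ≤ 1 / σ ^ 2) :
    A + 6 * C + 4 * m3 * D + m4 * F ≤ (a + 2 / σ * b) ^ 2 := by
  have h1 : C ≤ a * b := by
    have h2 : C ^ 2 ≤ (a * b) ^ 2 := by
      calc C ^ 2 ≤ A * F := hC
        _ ≤ a ^ 2 * b ^ 2 := mul_le_mul hA hF hF0 (sq_nonneg _)
        _ = (a * b) ^ 2 := by ring
    exact (abs_le_of_sq_le_sq' h2 (mul_nonneg ha hb)).2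
  have h2 : 4 * m3 * D ≤ |D| * (4 / σ) := by
    calc 4 * m3 * D ≤ |4 * m3 * D| := le_abs_self _
      _ = 4 * |m3| * |D| := by rw [abs_mul, abs_mul, abs_of_pos (by norm_num : (0 : ℝ) < 4)]
      _ ≤ 4 * (1 / σ) * |D| := by gcongr
      _ = |D| * (4 / σ) := by ring
  have h3 : m4 * F ≤ 1 / σ ^ 2 * F := mul_le_mul_of_nonneg_right hm4 hF0
  have h4 : 4 ≤ 2 / σ := by
    rw [le_div_iff₀ hσ]; linarith
  have h5 : 1 / σ ^ 2 * F ≤ 1 / σ ^ 2 * b ^ 2 := mul_le_mul_of_nonneg_left hF (by positivity)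
  have h6 : (a + 2 / σ * b) ^ 2 = a ^ 2 + 2 * (2 / σ) * (a * b) + 4 * (1 / σ ^ 2 * b ^ 2) := by
    field_simp
    ring
  have h7 : 0 ≤ a * b := mul_nonneg ha hb
  have h8 : 4 * (a * b) ≤ 2 / σ * (a * b) := mul_le_mul_of_nonneg_right h4 h7
  have h9 : 2 * F / σ ^ 2 = 2 * (1 / σ ^ 2 * F) := by ring
  have h10 : 0 ≤ 1 / σ ^ 2 * b ^ 2 := by positivity
  rw [h6]
  linarith

omit [Fintype E] [DecidableEq E] in
theorem chi_congr (p : ℝ) {S : Finset E} {e : E} (he : e ∉ S) {x y : E → Bool}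
    (h : ∀ e', e' ≠ e → x e' = y e') : chi p S x = chi p S y := by
  unfold chi
  exact prod_congr rfl fun e' he' => by
    rw [h e' (fun h0 => he (h0 ▸ he'))]

omit [Fintype E] in
theorem chi_insert (p : ℝ) {S : Finset E} {e : E} (he : e ∉ S) (x : E → Bool) :
    chi p (insert e S) x = phi p (x e) * chi p S x := by
  unfold chi
  rw [prod_insert he]

theorem sqrt_le_half (p : ℝ) : Real.sqrt (p * (1 - p)) ≤ 1 / 2 := by
  rw [Real.sqrt_le_left (by norm_num)]
  nlinarith [sq_nonneg (p - 1 / 2)]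

theorem Ex_const (p c : ℝ) : Ex p (fun _ : E → Bool => c) = c := by
  unfold Ex
  rw [← sum_mul]
  have h : ∑ x : E → Bool, wt p x = 1 := by
    unfold wt
    have := (Fintype.prod_sum (fun (_ : E) (b : Bool) => if b then p else 1 - p)).symm
    simp only [Fintype.sum_bool] at this
    rw [this]
    simp
  rw [h, one_mul]

theorem main (p : ℝ) (hp0 : 0 < p) (hp1 : p < 1) (U : Finset E) :
    ∀ c : Finset E → ℝ, Ex p (fun x => (∑ S ∈ U.powerset, c S * chi p S x) ^ 4) ≤
      (∑ S ∈ U.powerset, (2 / Real.sqrt (p * (1 - p))) ^ S.card * c S ^ 2) ^ 2 := by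
  have hpos : 0 < p * (1 - p) := mul_pos hp0 (by linarith)
  have hσ : 0 < Real.sqrt (p * (1 - p)) := Real.sqrt_pos.2 hpos
  induction U using Finset.induction_on with
  | empty =>
    intro c
    simp only [powerset_empty, sum_singleton, card_empty, pow_zero, one_mul]
    have h : ∀ x : E → Bool, (c ∅ * chi p ∅ x) ^ 4 = c ∅ ^ 4 := by
      intro x; simp [chi]
    simp only [h]
    rw [Ex_const]
    apply le_of_eq
    ring
  | insert e U he ih =>
    intro c
    set g0 : (E → Bool) → ℝ := fun x => ∑ S ∈ U.powerset, c S * chi p S x with hg0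
    set g1 : (E → Bool) → ℝ := fun x => ∑ S ∈ U.powerset, c (insert e S) * chi p S x with hg1
    have hnot : ∀ S ∈ U.powerset, e ∉ S := fun S hS h => he (mem_powerset.1 hS h)
    have hdec : ∀ x : E → Bool, ∑ S ∈ (insert e U).powerset, c S * chi p S x =
        g0 x + phi p (x e) * g1 x := by
      intro x
      rw [sum_powerset_insert he, hg0, hg1]
      simp only
      congr 1
      rw [mul_sum]
      exact sum_congr rfl fun S hS => by rw [chi_insert p (hnot S hS)]; ring
    have hc0 : ∀ x y : E → Bool, (∀ e', e' ≠ e → x e' = y e') → g0 x = g0 y := fun x y h =>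
      sum_congr rfl fun S hS => by rw [chi_congr p (hnot S hS) h]
    have hc1 : ∀ x y : E → Bool, (∀ e', e' ≠ e → x e' = y e') → g1 x = g1 y := fun x y h =>
      sum_congr rfl fun S hS => by rw [chi_congr p (hnot S hS) h]
    simp only [hdec]
    have hexp : Ex p (fun x => (g0 x + phi p (x e) * g1 x) ^ 4) =
        Ex p (fun x => g0 x ^ 4) + 6 * Ex p (fun x => g0 x ^ 2 * g1 x ^ 2) +
        4 * (p * phi p true ^ 3 + (1 - p) * phi p false ^ 3) * Ex p (fun x => g0 x * g1 x ^ 3) +
        (p * phi p true ^ 4 + (1 - p) * phi p false ^ 4) * Ex p (fun x => g1 x ^ 4) := by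
      have k1 := Ex_coord_mul p e (phi p) (fun x => g0 x ^ 3 * g1 x) (fun x y h => by
        simp only [hc0 x y h, hc1 x y h])
      have k2 := Ex_coord_mul p e (fun b => phi p b ^ 2) (fun x => g0 x ^ 2 * g1 x ^ 2)
        (fun x y h => by simp only [hc0 x y h, hc1 x y h])
      have k3 := Ex_coord_mul p e (fun b => phi p b ^ 3) (fun x => g0 x * g1 x ^ 3)
        (fun x y h => by simp only [hc0 x y h, hc1 x y h])
      have k4 := Ex_coord_mul p e (fun b => phi p b ^ 4) (fun x => g1 x ^ 4)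
        (fun x y h => by simp only [hc1 x y h])
      rw [m1, zero_mul] at k1
      rw [m2 hp0 hp1, one_mul] at k2
      have k5 : (fun x : E → Bool => (g0 x + phi p (x e) * g1 x) ^ 4) = fun x =>
          (g0 x ^ 4 + (4 * (phi p (x e) * (g0 x ^ 3 * g1 x)) +
            (6 * (phi p (x e) ^ 2 * (g0 x ^ 2 * g1 x ^ 2)) +
            (4 * (phi p (x e) ^ 3 * (g0 x * g1 x ^ 3)) + phi p (x e) ^ 4 * g1 x ^ 4)))) := by
        funext x; ring
      rw [k5, Ex_add, Ex_add, Ex_add, Ex_add, Ex_const_mul, Ex_const_mul, Ex_const_mul, k1, k2, k3,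
        k4]
      ring
    rw [hexp]
    have hsum : ∑ S ∈ (insert e U).powerset, (2 / Real.sqrt (p * (1 - p))) ^ S.card * c S ^ 2 =
        ∑ S ∈ U.powerset, (2 / Real.sqrt (p * (1 - p))) ^ S.card * c S ^ 2 +
        2 / Real.sqrt (p * (1 - p)) *
          ∑ S ∈ U.powerset, (2 / Real.sqrt (p * (1 - p))) ^ S.card * c (insert e S) ^ 2 := by
      rw [sum_powerset_insert he]
      congr 1
      rw [mul_sum]
      exact sum_congr rfl fun S hS => by
        rw [card_insert_of_notMem (hnot S hS), pow_succ]; ring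
    rw [hsum]
    have hsq : Real.sqrt (p * (1 - p)) ^ 2 = p * (1 - p) := Real.sq_sqrt hpos.le
    refine step hσ (sqrt_le_half p) (sum_nonneg fun S _ => by positivity)
      (sum_nonneg fun S _ => by positivity) (ih c) (ih fun S => c (insert e S)) ?_ ?_
      (Ex_cs hp0.le hp1.le g0 g1) ?_ (m3 hp0 hp1) ?_
    · have := Ex_mono hp0.le hp1.le (f := fun _ : E → Bool => (0 : ℝ)) (g := fun x => g0 x ^ 4)
        (fun x => by positivity)
      rwa [Ex_const] at this
    · have := Ex_mono hp0.le hp1.le (f := fun _ : E → Bool => (0 : ℝ)) (g := fun x => g1 x ^ 4)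
        (fun x => by positivity)
      rwa [Ex_const] at this
    · -- the mixed term
      set σ := Real.sqrt (p * (1 - p)) with hσdef
      have hpt : ∀ x : E → Bool, |g0 x * g1 x ^ 3| * (4 / σ) ≤
          2 * (g0 x ^ 2 * g1 x ^ 2) + 2 / σ ^ 2 * g1 x ^ 4 := by
        intro x
        have h1 : 0 ≤ g1 x ^ 2 * (|g0 x| - |g1 x| / σ) ^ 2 := by positivity
        have h2 : |g0 x * g1 x ^ 3| = |g0 x| * |g1 x| * g1 x ^ 2 := by
          rw [abs_mul, abs_pow]
          have : |g1 x| ^ 3 = |g1 x| * |g1 x| ^ 2 := by ring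
          rw [this, sq_abs]
          ring
        rw [h2]
        have h3 : g1 x ^ 2 * (|g0 x| - |g1 x| / σ) ^ 2 =
            g0 x ^ 2 * g1 x ^ 2 - 2 * (|g0 x| * |g1 x| * g1 x ^ 2) / σ + g1 x ^ 4 / σ ^ 2 := by
          have h4 : (|g0 x| - |g1 x| / σ) ^ 2 = |g0 x| ^ 2 - 2 * |g0 x| * |g1 x| / σ +
            |g1 x| ^ 2 / σ ^ 2 := by
            field_simp
            ring
          rw [h4, sq_abs, sq_abs]
          ring
        rw [h3] at h1
        have h5 : |g0 x| * |g1 x| * g1 x ^ 2 * (4 / σ) =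
            2 * (2 * (|g0 x| * |g1 x| * g1 x ^ 2) / σ) := by ring
        have h6 : 2 / σ ^ 2 * g1 x ^ 4 = 2 * (g1 x ^ 4 / σ ^ 2) := by ring
        rw [h5, h6]
        linarith
      have h1 : |Ex p (fun x => g0 x * g1 x ^ 3)| ≤ Ex p (fun x => |g0 x * g1 x ^ 3|) := by
        unfold Ex
        refine (abs_sum_le_sum_abs _ _).trans (le_of_eq (sum_congr rfl fun x _ => ?_))
        rw [abs_mul, abs_of_nonneg (wt_nonneg hp0.le hp1.le x)]
      have h2 : Ex p (fun x => |g0 x * g1 x ^ 3|) * (4 / σ) ≤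
          2 * Ex p (fun x => g0 x ^ 2 * g1 x ^ 2) + 2 / σ ^ 2 * Ex p (fun x => g1 x ^ 4) := by
        rw [mul_comm, ← Ex_const_mul, ← Ex_const_mul, ← Ex_const_mul, ← Ex_add]
        refine Ex_mono hp0.le hp1.le fun x => ?_
        have := hpt x
        rw [mul_comm] at this
        exact this
      have h3 : 0 ≤ 4 / σ := by positivity
      have h4 := mul_le_mul_of_nonneg_right h1 h3
      have h5 : 2 * Ex p (fun x => g1 x ^ 4) / σ ^ 2 = 2 / σ ^ 2 * Ex p (fun x => g1 x ^ 4) := by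
        ring
      rw [h5]
      linarith
    · rw [hsq]
      exact m4 hp0 hp1

/-- Fourier expansion -/
theorem expand' (p : ℝ) (hp0 : 0 < p) (hp1 : p < 1) (f : (E → Bool) → ℝ) (x : E → Bool) :
    f x = ∑ S : Finset E, coef p f S * chi p S x := by
  have hpos : 0 < p * (1 - p) := mul_pos hp0 (by linarith)
  have hss : Real.sqrt (p * (1 - p)) * Real.sqrt (p * (1 - p)) = p * (1 - p) :=
    Real.mul_self_sqrt hpos.le
  have hker : ∀ a b : Bool, (if a then p else 1 - p) * (1 + phi p a * phi p b) =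
      if a = b then 1 else 0 := by
    intro a b
    have hp' : p ≠ 0 := hp0.ne'
    have hq' : 1 - p ≠ 0 := by linarith
    have hφ : phi p a * phi p b =
        (((if a then 1 else 0) - p) * ((if b then 1 else 0) - p)) / (p * (1 - p)) := by
      unfold phi
      rw [div_mul_div_comm, hss]
    rw [hφ]
    cases a <;> cases b <;>
      simp only [if_true, Bool.false_eq_true, Bool.true_eq_false, if_false] <;> field_simp <;> ring
  have h1 : ∀ y : E → Bool, wt p y * ∑ S : Finset E, chi p S y * chi p S x =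
      if y = x then 1 else 0 := by
    intro y
    have h2 : ∑ S : Finset E, chi p S y * chi p S x = ∏ e, (1 + phi p (y e) * phi p (x e)) := by
      rw [prod_one_add, powerset_univ]
      refine sum_congr rfl fun S _ => ?_
      unfold chi
      rw [← prod_mul_distrib]
    rw [h2]
    unfold wt
    rw [← prod_mul_distrib]
    simp only [hker]
    by_cases h : y = x
    · subst h; simp
    · rw [if_neg h]
      obtain ⟨e, he⟩ := Function.ne_iff.1 h
      exact prod_eq_zero (mem_univ e) (if_neg he)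
  have h2 : ∑ S : Finset E, coef p f S * chi p S x =
      ∑ y, f y * (wt p y * ∑ S : Finset E, chi p S y * chi p S x) := by
    unfold coef Ex
    simp only [sum_mul, mul_sum]
    rw [sum_comm]
    exact sum_congr rfl fun y _ => sum_congr rfl fun S _ => by ring
  rw [h2]
  simp only [h1]
  simp

theorem parseval (p : ℝ) (hp0 : 0 < p) (hp1 : p < 1) (f : (E → Bool) → ℝ) :
    Ex p (fun x => f x ^ 2) = ∑ S : Finset E, coef p f S ^ 2 := by
  have h1 : ∀ x, f x ^ 2 = ∑ S : Finset E, coef p f S * (f x * chi p S x) := by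
    intro x
    have := expand' p hp0 hp1 f x
    calc f x ^ 2 = f x * f x := by ring
      _ = f x * ∑ S : Finset E, coef p f S * chi p S x := by rw [← this]
      _ = _ := by
        rw [mul_sum]
        exact sum_congr rfl fun S _ => by ring
  simp only [h1]
  unfold Ex
  simp only [mul_sum]
  rw [sum_comm]
  refine sum_congr rfl fun S _ => ?_
  have h2 : coef p f S ^ 2 = coef p f S * ∑ x, wt p x * (f x * chi p S x) := by
    rw [pow_two]; rfl
  rw [h2, mul_sum]
  exact sum_congr rfl fun x _ => by ring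

end Hyper

/-- MODULE HYPER : the (2,4) inequality for the biased cube. -/
theorem bonami (p : ℝ) (hp0 : 0 < p) (hp1 : p < 1) (k : ℕ) (h : (E → Bool) → ℝ)
    (hk : ∀ S : Finset E, k < S.card → coef p h S = 0) :
    Ex p (fun x => h x ^ 4) ≤ (4 / (p * (1 - p))) ^ k * (Ex p (fun x => h x ^ 2)) ^ 2 := by
  have hpos : 0 < p * (1 - p) := mul_pos hp0 (by linarith)
  have hσ : 0 < Real.sqrt (p * (1 - p)) := Real.sqrt_pos.2 hpos
  have h1 := Hyper.main p hp0 hp1 (univ : Finset E) (coef p h)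
  simp only [powerset_univ] at h1
  have h2 : ∀ x, ∑ S : Finset E, coef p h S * chi p S x = h x := fun x =>
    (Hyper.expand' p hp0 hp1 h x).symm
  simp only [h2] at h1
  refine h1.trans ?_
  rw [Hyper.parseval p hp0 hp1]
  set B := 2 / Real.sqrt (p * (1 - p)) with hB
  have hB1 : 1 ≤ B := by
    rw [hB, le_div_iff₀ hσ]
    linarith [Hyper.sqrt_le_half p]
  have h3 : ∑ S : Finset E, B ^ S.card * coef p h S ^ 2 ≤ B ^ k * ∑ S : Finset E, coef p h S ^ 2 := by
    rw [mul_sum]
    refine sum_le_sum fun S _ => ?_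
    by_cases hS : k < S.card
    · rw [hk S hS]; simp
    · exact mul_le_mul_of_nonneg_right (pow_le_pow_right₀ hB1 (not_lt.1 hS)) (sq_nonneg _)
  have h4 : 0 ≤ ∑ S : Finset E, B ^ S.card * coef p h S ^ 2 :=
    sum_nonneg fun S _ => by positivity
  calc (∑ S : Finset E, B ^ S.card * coef p h S ^ 2) ^ 2
      ≤ (B ^ k * ∑ S : Finset E, coef p h S ^ 2) ^ 2 := pow_le_pow_left₀ h4 h3 2
    _ = (4 / (p * (1 - p))) ^ k * (∑ S : Finset E, coef p h S ^ 2) ^ 2 := by
      rw [mul_pow, ← pow_mul, mul_comm k 2, pow_mul, hB, div_pow, Real.sq_sqrt hpos.le]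
      norm_num

end Vale.Agent.P063
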