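import Vale.Agent.Lib.P063.Sym

/-!
# P063: the abstract inequality
-/

namespace Vale.Agent.P063

open Finset

theorem choose_sub_ge (N l u : ℕ) (hu : u ≤ N + 1) :
    (N + 1).choose (l + 1) ≤ (N + 1 - u).choose (l + 1) + u * N.choose l := by
  induction u with
  | zero => simp
  | succ u ih =>
    have h1 := ih (by omega)
    obtain ⟨m, hm⟩ : ∃ m, N + 1 - u = m + 1 := ⟨N - u, by omega⟩
    have h2 : N + 1 - (u + 1) = m := by omega
    have h5 : (m + 1).choose (l + 1) = m.choose l + m.choose (l + 1) := Nat.choose_succ_succ m l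
    rw [hm, h5] at h1
    rw [h2]
    have h3 : m.choose l ≤ N.choose l := Nat.choose_le_choose l (by omega)
    have h4 : (u + 1) * N.choose l = u * N.choose l + N.choose l := by ring
    rw [h4]
    omega

theorem choose_half (N l u : ℕ) (h : 2 * (u * l) ≤ N) (hu : u ≤ N) :
    N.choose l ≤ 2 * (N - u).choose l := by
  rcases l with _ | l
  · simp
  rcases N with _ | N
  · simp
  have h1 := choose_sub_ge N l u hu
  have h2 := Nat.add_one_mul_choose_eq N l
  have h3 : 2 * (u * N.choose l) ≤ (N + 1).choose (l + 1) := by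
    have h4 : (N + 1) * (2 * (u * N.choose l)) ≤ (N + 1) * (N + 1).choose (l + 1) := by
      calc (N + 1) * (2 * (u * N.choose l)) = 2 * u * ((N + 1) * N.choose l) := by ring
        _ = 2 * u * ((N + 1).choose (l + 1) * (l + 1)) := by
            rw [h2]
        _ = (2 * (u * (l + 1))) * (N + 1).choose (l + 1) := by ring
        _ ≤ (N + 1) * (N + 1).choose (l + 1) := Nat.mul_le_mul_right _ h
    exact Nat.le_of_mul_le_mul_left h4 (by omega)
  omega

section

variable {V : Type*} [Fintype V] [DecidableEq V]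

theorem count_ge (v : V) (U : Finset V) (hv : v ∉ U) (L : ℕ) :
    (Fintype.card V - 1 - U.card).choose L
      ≤ ((powersetCard (L + 1) (univ : Finset V)).filter
          (fun W => v ∈ W ∧ Disjoint W U)).card := by
  set X : Finset V := (univ \ U).erase v with hX
  have hXc : X.card = Fintype.card V - 1 - U.card := by
    have h1 : v ∈ univ \ U := by simp [hv]
    rw [hX, card_erase_of_mem h1, card_sdiff_of_subset (subset_univ U), card_univ]
    omega
  rw [← hXc, ← card_powersetCard]
  have hinj : Set.InjOn (fun W : Finset V => insert v W) ↑(powersetCard L X) := by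
    intro A hA B hB hAB
    have hvA : v ∉ A := fun h => by
      have := (mem_powersetCard.1 hA).1 h
      simp [hX] at this
    have hvB : v ∉ B := fun h => by
      have := (mem_powersetCard.1 hB).1 h
      simp [hX] at this
    have h1 : (insert v A).erase v = (insert v B).erase v := congrArg (fun C => C.erase v) hAB
    rwa [erase_insert hvA, erase_insert hvB] at h1
  rw [← card_image_of_injOn hinj]
  refine card_le_card fun W hW => ?_
  obtain ⟨A, hA, rfl⟩ := mem_image.1 hW
  obtain ⟨hA1, hA2⟩ := mem_powersetCard.1 hA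
  have hvA : v ∉ A := fun h => by
    have := hA1 h
    simp [hX] at this
  refine mem_filter.2 ⟨mem_powersetCard.2 ⟨subset_univ _, ?_⟩, mem_insert_self _ _, ?_⟩
  · rw [card_insert_of_notMem hvA, hA2]
  · rw [disjoint_insert_left]
    refine ⟨hv, ?_⟩
    rw [disjoint_left]
    intro u hu hU
    have := hA1 hu
    simp [hX, hU] at this

/-- the count of the sets `W` which meet a given small set only in `v` -/
theorem count_main (v : V) (U : Finset V) (hv : v ∉ U) (M L : ℕ) (hL : 1 ≤ L)
    (hU : U.card ≤ M) (hM : 1 ≤ M) (hn : 2 * M * L ≤ Fintype.card V) :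
    L * (Fintype.card V).choose L ≤ 2 * Fintype.card V *
      ((powersetCard L (univ : Finset V)).filter (fun W => v ∈ W ∧ Disjoint W U)).card := by
  obtain ⟨l, rfl⟩ : ∃ l, L = l + 1 := ⟨L - 1, by omega⟩
  set n := Fintype.card V with hnn
  obtain ⟨N, hN⟩ : ∃ N, n = N + 1 := ⟨n - 1, by
    have : 1 ≤ n := Fintype.card_pos_iff.2 ⟨v⟩
    omega⟩
  have h1 := count_ge v U hv l
  rw [← hnn, hN] at h1
  have e1 : N + 1 - 1 - U.card = N - U.card := by omega
  rw [e1] at h1
  have h5 : U.card * l ≤ M * l := Nat.mul_le_mul_right _ hU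
  have h6 : 2 * M * (l + 1) = 2 * (M * l) + 2 * M := by ring
  have hUN : U.card ≤ N := by
    have : U.card ≤ n - 1 := by
      have h7 : U ⊆ univ.erase v := fun u hu => by
        rw [mem_erase]
        exact ⟨fun h => hv (h ▸ hu), mem_univ _⟩
      have := card_le_card h7
      rwa [card_erase_of_mem (mem_univ v), card_univ] at this
    omega
  have h2 := choose_half N l U.card (by omega) hUN
  have h3 := Nat.add_one_mul_choose_eq N l
  rw [hN]
  have h4 : (l + 1) * (N + 1).choose (l + 1) = (N + 1) * N.choose l := by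
    have : (N + 1) * N.choose l = (N + 1).choose (l + 1) * (l + 1) := h3
    rw [this]; ring
  rw [h4]
  set c := ((powersetCard (l + 1) (univ : Finset V)).filter
    (fun W => v ∈ W ∧ Disjoint W U)).card with hc
  calc (N + 1) * N.choose l ≤ (N + 1) * (2 * (N - U.card).choose l) :=
        Nat.mul_le_mul_left _ h2
    _ ≤ (N + 1) * (2 * c) := Nat.mul_le_mul_left _ (Nat.mul_le_mul_left _ h1)
    _ = 2 * (N + 1) * c := by ring

end

variable {E V : Type*} [Fintype E] [DecidableEq E] [DecidableEq V] [Fintype V]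

/-- the abstract inequality -/
theorem main_abstract (vs : E → Finset V)
    (hinj : Function.Injective vs) (r M k L : ℕ) (hr : ∀ e, (vs e).card ≤ r)
    (hLM : 2 * M * L ≤ Fintype.card V) (hL0 : 1 ≤ L)
    {p : ℝ} (hp0 : 0 < p) (hp1 : p < 1)
    (hyp : ∀ h : (E → Bool) → ℝ, (∀ S : Finset E, k < S.card → coef p h S = 0) →
      Ex p (fun x => h x ^ 4) ≤ (4 / (p * (1 - p))) ^ k * (Ex p (fun x => h x ^ 2)) ^ 2)
    (hL : (4 * (M : ℝ)) ^ 3 * (4 / (p * (1 - p))) ^ k ≤ L)
    (hdeg : ∀ S : Finset E, S.Nonempty → r * S.card ≤ M →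
      ∃ v, 1 ≤ (S.filter (fun e => v ∈ vs e)).card ∧ (S.filter (fun e => v ∈ vs e)).card ≤ k)
    (f : (E → Bool) → ℝ) (hf : ∀ x, f x = 0 ∨ f x = 1)
    (hsym : ∀ σ : Equiv.Perm V, ∃ ρ : Equiv.Perm E, (∀ e, vs (ρ e) = (vs e).map σ.toEmbedding) ∧
      ∀ x, f (x ∘ ρ) = f x) :
    (M : ℝ) / (2 * r) * (Ex p f * (1 - Ex p f))
      ≤ ∑ S : Finset E, (S.card : ℝ) * coef p f S ^ 2 := by
  set J : ℝ := ∑ S : Finset E, (S.card : ℝ) * coef p f S ^ 2 with hJ
  have hJ0 : 0 ≤ J := sum_nonneg fun S _ => by positivity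
  rcases Nat.eq_zero_or_pos M with hM0 | hM0
  · rw [hM0]; simpa using hJ0
  rcases Nat.eq_zero_or_pos r with hr0 | hr0
  · rw [hr0]; simpa using hJ0
  have hpq := pq_pos hp0 hp1
  set n := Fintype.card V with hn
  have hn1 : 1 ≤ n := by
    have : 1 ≤ M * L := Nat.mul_pos hM0 (by omega)
    nlinarith
  have hV : Nonempty V := Fintype.card_pos_iff.1 hn1
  obtain ⟨v0⟩ := hV
  set τ : ℝ := Ex p (fun x => |del p f vs v0 x|) with hτ
  have hτ0 : 0 ≤ τ := Ex_nonneg hp0.le hp1.le fun x => abs_nonneg _
  have hτv : ∀ v, Ex p (fun x => |del p f vs v x|) = τ := by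
    intro v
    obtain ⟨ρ, hρ, hfρ⟩ := hsym (Equiv.swap v0 v)
    have := Ex_del_comp p hρ hfρ v0
    rw [hτ, this]
    simp
  -- the total of the star derivatives
  have hnτ : (n : ℝ) * τ ≤ 2 * r * J := by
    have h1 : (n : ℝ) * τ = ∑ v : V, Ex p (fun x => |del p f vs v x|) := by
      simp_rw [hτv]
      rw [sum_const, card_univ, nsmul_eq_mul]
    rw [h1]
    calc ∑ v : V, Ex p (fun x => |del p f vs v x|)
        ≤ ∑ v : V, 2 * ∑ S : Finset E, ((S ∩ star vs v).card : ℝ) * coef p f S ^ 2 :=
          sum_le_sum fun v _ => Ex_abs_del_le hp0 hp1 hf vs v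
      _ = 2 * ∑ S : Finset E, ((∑ v, (S ∩ star vs v).card : ℕ) : ℝ) * coef p f S ^ 2 := by
          rw [← mul_sum, sum_comm]
          congr 1
          refine sum_congr rfl fun S _ => ?_
          rw [← sum_mul]
          push_cast
          rfl
      _ ≤ 2 * ∑ S : Finset E, (r * S.card : ℝ) * coef p f S ^ 2 := by
          refine mul_le_mul_of_nonneg_left (sum_le_sum fun S _ => ?_) (by norm_num)
          refine mul_le_mul_of_nonneg_right ?_ (sq_nonneg _)
          exact_mod_cast sum_star_le vs r hr S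
      _ = 2 * r * J := by
          rw [hJ, mul_sum, mul_sum]
          exact sum_congr rfl fun S _ => by ring
  -- the parameter
  set θ : ℝ := L / (4 * M) with hθ
  have hMr : (0 : ℝ) < M := by exact_mod_cast hM0
  have hLr : (0 : ℝ) < L := by exact_mod_cast hL0
  have hrr : (0 : ℝ) < r := by exact_mod_cast hr0
  have hθ0 : 0 ≤ θ := by positivity
  have hθ3 : (L : ℝ) ^ 2 * (4 / (p * (1 - p))) ^ k ≤ θ ^ 3 := by
    rw [hθ, div_pow (L : ℝ) (4 * (M : ℝ)) 3, le_div_iff₀ (by positivity)]
    calc (L : ℝ) ^ 2 * (4 / (p * (1 - p))) ^ k * (4 * (M : ℝ)) ^ 3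
        = (L : ℝ) ^ 2 * ((4 * (M : ℝ)) ^ 3 * (4 / (p * (1 - p))) ^ k) := by ring
      _ ≤ (L : ℝ) ^ 2 * L := mul_le_mul_of_nonneg_left hL (by positivity)
      _ = (L : ℝ) ^ 3 := by ring
  -- the bound for each W
  have hW : ∀ W ∈ powersetCard L (univ : Finset V),
      ∑ v ∈ W, ∑ S ∈ cls vs k W v, coef p f S ^ 2 ≤ θ * τ := by
    intro W hW
    have hc := (mem_powersetCard.1 hW).2
    refine core_bound hp0 hp1 f hf vs k hyp ?_ θ hθ0 (by rw [hc]; exact hθ3) τ hτ0
      (fun v _ => (hτv v).le)
    intro v hv v' hv' x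
    obtain ⟨ρ, hρ, hfρ⟩ := hsym (Equiv.swap v v')
    exact avg_touch_comp p hinj hv hv' hρ hfρ x
  -- small sets
  set Low : Finset (Finset E) := univ.filter (fun S => S.Nonempty ∧ r * S.card ≤ M) with hLow
  have hlow : ∑ S ∈ Low, coef p f S ^ 2 ≤ r * J / M := by
    have h1 : ∀ S ∈ Low, ((L : ℝ) / (2 * n)) * (n.choose L : ℝ) * coef p f S ^ 2
        ≤ ∑ W ∈ powersetCard L (univ : Finset V), ∑ v ∈ W,
          if S ∈ cls vs k W v then coef p f S ^ 2 else 0 := by
      intro S hS
      obtain ⟨hS1, hS2⟩ := (mem_filter.1 hS).2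
      obtain ⟨v, hv1, hv2⟩ := hdeg S hS1 hS2
      set U : Finset V := (S.biUnion vs).erase v with hU
      have hUc : U.card ≤ M := by
        calc U.card ≤ (S.biUnion vs).card := card_le_card (erase_subset _ _)
          _ ≤ ∑ e ∈ S, (vs e).card := card_biUnion_le
          _ ≤ ∑ e ∈ S, r := sum_le_sum fun e _ => hr e
          _ = r * S.card := by rw [sum_const, smul_eq_mul, mul_comm]
          _ ≤ M := hS2
      have hcount := count_main v U (notMem_erase _ _) M L hL0 hUc hM0 hLM
      set 𝒲 := (powersetCard L (univ : Finset V)).filter (fun W => v ∈ W ∧ Disjoint W U) with h𝒲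
      have h2 : (L : ℝ) / (2 * n) * (n.choose L : ℝ) ≤ (𝒲.card : ℝ) := by
        have hnr : (0 : ℝ) < n := by exact_mod_cast hn1
        rw [div_mul_eq_mul_div, div_le_iff₀ (by positivity)]
        have : ((L * n.choose L : ℕ) : ℝ) ≤ ((2 * n * 𝒲.card : ℕ) : ℝ) := by
          exact_mod_cast hcount
        push_cast at this
        linarith
      have h3 : (𝒲.card : ℝ) * coef p f S ^ 2
          = ∑ W ∈ 𝒲, coef p f S ^ 2 := by rw [sum_const, nsmul_eq_mul]
      calc (L : ℝ) / (2 * n) * (n.choose L : ℝ) * coef p f S ^ 2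
          ≤ (𝒲.card : ℝ) * coef p f S ^ 2 := mul_le_mul_of_nonneg_right h2 (sq_nonneg _)
        _ = ∑ W ∈ 𝒲, coef p f S ^ 2 := h3
        _ ≤ ∑ W ∈ 𝒲, ∑ v ∈ W, (if S ∈ cls vs k W v then coef p f S ^ 2 else 0) := by
            refine sum_le_sum fun W hW => ?_
            obtain ⟨hW1, hW2⟩ := (mem_filter.1 hW).2
            have hSc : S ∈ cls vs k W v := by
              refine mem_filter.2 ⟨mem_univ _, ?_, ?_, ?_⟩
              · intro e he u hu
                rw [mem_singleton]
                by_contra hne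
                have h4 : u ∈ U := mem_erase.2 ⟨hne, mem_biUnion.2 ⟨e, he, (mem_inter.1 hu).1⟩⟩
                exact disjoint_left.1 hW2 (mem_inter.1 hu).2 h4
              · have : S ∩ star vs v = S.filter (fun e => v ∈ vs e) := by
                  ext e; simp [mem_star]
                rw [this]; exact hv1
              · have : S ∩ star vs v = S.filter (fun e => v ∈ vs e) := by
                  ext e; simp [mem_star]
                rw [this]; exact hv2
            calc coef p f S ^ 2 = (if S ∈ cls vs k W v then coef p f S ^ 2 else 0) := by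
                  rw [if_pos hSc]
              _ ≤ _ := single_le_sum (f := fun v => if S ∈ cls vs k W v
                    then coef p f S ^ 2 else 0) (fun u _ => by
                    split_ifs
                    · exact sq_nonneg _
                    · exact le_rfl) hW1
        _ ≤ _ := by
            refine sum_le_sum_of_subset_of_nonneg (filter_subset _ _) fun W _ _ => ?_
            refine sum_nonneg fun u _ => ?_
            split_ifs
            · exact sq_nonneg _
            · exact le_rfl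
    have h2 : ((L : ℝ) / (2 * n)) * (n.choose L : ℝ) * ∑ S ∈ Low, coef p f S ^ 2
        ≤ (n.choose L : ℝ) * (θ * τ) := by
      rw [mul_sum]
      calc ∑ S ∈ Low, ((L : ℝ) / (2 * n)) * (n.choose L : ℝ) * coef p f S ^ 2
          ≤ ∑ S ∈ Low, ∑ W ∈ powersetCard L (univ : Finset V), ∑ v ∈ W,
            (if S ∈ cls vs k W v then coef p f S ^ 2 else 0) := sum_le_sum h1
        _ ≤ ∑ S : Finset E, ∑ W ∈ powersetCard L (univ : Finset V), ∑ v ∈ W,
            (if S ∈ cls vs k W v then coef p f S ^ 2 else 0) := by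
            refine sum_le_sum_of_subset_of_nonneg (subset_univ _) fun S _ _ => ?_
            refine sum_nonneg fun W _ => sum_nonneg fun u _ => ?_
            split_ifs
            · exact sq_nonneg _
            · exact le_rfl
        _ = ∑ W ∈ powersetCard L (univ : Finset V), ∑ v ∈ W, ∑ S ∈ cls vs k W v,
              coef p f S ^ 2 := by
            rw [sum_comm]
            refine sum_congr rfl fun W _ => ?_
            rw [sum_comm]
            refine sum_congr rfl fun v _ => ?_
            rw [← sum_filter]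
            refine sum_congr ?_ fun _ _ => rfl
            ext S
            simp
        _ ≤ ∑ W ∈ powersetCard L (univ : Finset V), θ * τ := sum_le_sum hW
        _ = (n.choose L : ℝ) * (θ * τ) := by
            rw [sum_const, card_powersetCard, card_univ, nsmul_eq_mul]
    have hnr : (0 : ℝ) < n := by exact_mod_cast hn1
    have hLn : L ≤ n := by nlinarith
    have hch : (0 : ℝ) < (n.choose L : ℝ) := by exact_mod_cast Nat.choose_pos hLn
    have h3 : (L : ℝ) / (2 * n) * ∑ S ∈ Low, coef p f S ^ 2 ≤ θ * τ := by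
      have h4 : (n.choose L : ℝ) * ((L : ℝ) / (2 * n) * ∑ S ∈ Low, coef p f S ^ 2)
          ≤ (n.choose L : ℝ) * (θ * τ) := by
        calc (n.choose L : ℝ) * ((L : ℝ) / (2 * n) * ∑ S ∈ Low, coef p f S ^ 2)
            = ((L : ℝ) / (2 * n)) * (n.choose L : ℝ) * ∑ S ∈ Low, coef p f S ^ 2 := by ring
          _ ≤ _ := h2
      exact le_of_mul_le_mul_left h4 hch
    set X : ℝ := ∑ S ∈ Low, coef p f S ^ 2 with hX
    have h5 : (L : ℝ) * X ≤ θ * (2 * n * τ) := by
      rw [div_mul_eq_mul_div, div_le_iff₀ (by positivity)] at h3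
      linarith
    have h6 : θ * (2 * n * τ) ≤ θ * (4 * r * J) :=
      mul_le_mul_of_nonneg_left (by linarith) hθ0
    have h7 : (L : ℝ) * X ≤ L * (r * J / M) := by
      refine (h5.trans h6).trans (le_of_eq ?_)
      rw [hθ]
      field_simp
    exact le_of_mul_le_mul_left h7 hLr
  -- the variance
  have hvar : ∑ S ∈ (univ : Finset (Finset E)).erase ∅, coef p f S ^ 2
      = Ex p f * (1 - Ex p f) := by
    have h1 := parseval hp0 hp1 f f
    have h2 : Ex p (fun x => f x * f x) = Ex p f := Ex_congr fun x => by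
      rcases hf x with h | h <;> rw [h] <;> norm_num
    rw [h2] at h1
    have h3 := add_sum_erase (univ : Finset (Finset E)) (fun S => coef p f S ^ 2)
      (mem_univ ∅)
    have h4 : ∑ S : Finset E, coef p f S ^ 2 = Ex p f := by
      rw [h1]
      exact sum_congr rfl fun S _ => sq _
    rw [h4, coef_empty] at h3
    linarith
  -- conclusion
  have hbig : (M : ℝ) / r * (Ex p f * (1 - Ex p f) - r * J / M) ≤ J := by
    have h1 : Ex p f * (1 - Ex p f) - r * J / M
        ≤ ∑ S ∈ ((univ : Finset (Finset E)).erase ∅) \ Low, coef p f S ^ 2 := by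
      have hsub : Low ⊆ (univ : Finset (Finset E)).erase ∅ := by
        intro S hS
        rw [mem_erase]
        exact ⟨(mem_filter.1 hS).2.1.ne_empty, mem_univ _⟩
      have h2 := sum_sdiff (f := fun S => coef p f S ^ 2) hsub
      rw [hvar] at h2
      linarith
    calc (M : ℝ) / r * (Ex p f * (1 - Ex p f) - r * J / M)
        ≤ (M : ℝ) / r * ∑ S ∈ ((univ : Finset (Finset E)).erase ∅) \ Low, coef p f S ^ 2 :=
          mul_le_mul_of_nonneg_left h1 (by positivity)
      _ = ∑ S ∈ ((univ : Finset (Finset E)).erase ∅) \ Low, (M : ℝ) / r * coef p f S ^ 2 :=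
          mul_sum _ _ _
      _ ≤ ∑ S ∈ ((univ : Finset (Finset E)).erase ∅) \ Low, (S.card : ℝ) * coef p f S ^ 2 := by
          refine sum_le_sum fun S hS => mul_le_mul_of_nonneg_right ?_ (sq_nonneg _)
          obtain ⟨h3, h4⟩ := mem_sdiff.1 hS
          have h5 : S.Nonempty := nonempty_iff_ne_empty.2 (mem_erase.1 h3).1
          have h6 : M < r * S.card := by
            by_contra hcon
            exact h4 (mem_filter.2 ⟨mem_univ _, h5, not_lt.1 hcon⟩)
          rw [div_le_iff₀ hrr]
          have : (M : ℝ) ≤ ((r * S.card : ℕ) : ℝ) := by exact_mod_cast h6.le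
          push_cast at this
          linarith
      _ ≤ J := sum_le_sum_of_subset_of_nonneg (subset_univ _) fun S _ _ => by positivity
  have h8 : (M : ℝ) / r * (Ex p f * (1 - Ex p f) - r * J / M)
      = (M : ℝ) / r * (Ex p f * (1 - Ex p f)) - J := by
    field_simp
  rw [h8] at hbig
  have h9 : (M : ℝ) / (2 * r) * (Ex p f * (1 - Ex p f))
      = ((M : ℝ) / r * (Ex p f * (1 - Ex p f))) / 2 := by
    field_simp
  rw [h9]
  linarith

end Vale.Agent.P063
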