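import Mathlib
import Vale.Agent.Lib.P063.Defs

/-!
# P063: the choice of the parameters
-/

namespace Vale.Agent.P063

open Finset

/-- the choice of `L` -/
theorem param_L (n D : ℕ) (T : ℝ) (hD : 1 ≤ D) (hT : 1 ≤ T) (hmain : 256 * (D : ℝ) ^ 4 * T ≤ n) :
    ∃ L : ℕ, 1 ≤ L ∧ 2 * D * L ≤ n ∧ (4 * (D : ℝ)) ^ 3 * T ≤ L := by
  have hD1 : (1 : ℝ) ≤ D := by exact_mod_cast hD
  have hD0 : (0 : ℝ) < D := by linarith
  have hden : 0 < 2 * D := by omega
  have hLreal : (n : ℝ) / (2 * D) - 1 < ((n / (2 * D) : ℕ) : ℝ) := by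
    have h1 : n < (2 * D) * (n / (2 * D) + 1) := Nat.lt_mul_div_succ n hden
    have h2 : (n : ℝ) < (2 * D) * (((n / (2 * D) : ℕ) : ℝ) + 1) := by
      exact_mod_cast h1
    have h3 : (n : ℝ) / (2 * D) < ((n / (2 * D) : ℕ) : ℝ) + 1 := by
      rw [div_lt_iff₀ (by positivity)]
      linarith
    linarith
  have h1 : 256 * (D : ℝ) ^ 4 * T / (2 * D) ≤ (n : ℝ) / (2 * D) :=
    div_le_div_of_nonneg_right hmain (by positivity)
  have h2 : 256 * (D : ℝ) ^ 4 * T / (2 * D) = 128 * ((D : ℝ) ^ 3 * T) := by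
    field_simp; ring
  rw [h2] at h1
  have h3 : (1 : ℝ) ≤ (D : ℝ) ^ 3 * T := by
    have : (1 : ℝ) ≤ (D : ℝ) ^ 3 := one_le_pow₀ hD1
    nlinarith
  refine ⟨n / (2 * D), ?_, Nat.mul_div_le n (2 * D), ?_⟩
  · have : (1 : ℝ) ≤ ((n / (2 * D) : ℕ) : ℝ) := by linarith
    exact_mod_cast this
  · have e : (4 * (D : ℝ)) ^ 3 * T = 64 * ((D : ℝ) ^ 3 * T) := by ring
    rw [e]
    linarith

/-- MODULE PARAM: the choice of the parameters `M = j^r`, `k = j^(r-1)`, `L = n / (2 j^r)`. -/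
theorem param (r : ℕ) (hr : 2 ≤ r) : ∃ c : ℝ, 0 < c ∧ ∀ (n : ℕ) (Q : ℝ), 16 ≤ Q →
    Real.log Q ≤ c * Real.log n → ∃ j L : ℕ, 1 ≤ j ∧ 1 ≤ L ∧ 2 * j ^ r * L ≤ n ∧
      (4 * ((j ^ r : ℕ) : ℝ)) ^ 3 * Q ^ (j ^ (r - 1)) ≤ L ∧
      c * (Real.log n / Real.log Q) ^ ((r : ℝ) / (r - 1)) ≤ ((j ^ r : ℕ) : ℝ) := by
  have hr2 : (2 : ℝ) ≤ r := by exact_mod_cast hr
  have hr0 : (0 : ℝ) < r := by linarith
  set s : ℝ := (r : ℝ) - 1 with hs
  have hs1 : 1 ≤ s := by rw [hs]; linarith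
  have hs0 : 0 < s := by linarith
  set a : ℝ := 1 / (8 * r) with ha
  have ha0 : 0 < a := by rw [ha]; positivity
  set c1 : ℝ := a ^ ((r : ℝ) / s) / 2 ^ r with hc1
  have hc10 : 0 < c1 := by rw [hc1]; positivity
  set c : ℝ := min (1 / 8) (min a c1) with hc
  have hc0 : 0 < c := lt_min (by norm_num) (lt_min ha0 hc10)
  have hc8 : c ≤ 1 / 8 := min_le_left _ _
  have hca : c ≤ a := (min_le_right _ _).trans (min_le_left _ _)
  have hcc1 : c ≤ c1 := (min_le_right _ _).trans (min_le_right _ _)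
  refine ⟨c, hc0, fun n Q hQ hlog => ?_⟩
  -- logarithms
  have hQ0 : 0 < Q := by linarith
  have hlog16 : 1 ≤ Real.log 16 := by
    have h1 : Real.exp 1 ≤ 16 := by
      have := Real.exp_one_lt_d9
      linarith
    have := Real.log_le_log (Real.exp_pos 1) h1
    rwa [Real.log_exp] at this
  have hlogQ : Real.log 16 ≤ Real.log Q := Real.log_le_log (by norm_num) hQ
  have hlogQ1 : 1 ≤ Real.log Q := hlog16.trans hlogQ
  have hlogQ0 : 0 < Real.log Q := by linarith
  have hlogn0 : 0 < Real.log n := by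
    by_contra hcon
    push Not at hcon
    have : c * Real.log n ≤ 0 := mul_nonpos_of_nonneg_of_nonpos hc0.le hcon
    linarith
  have hn0 : n ≠ 0 := by
    rintro rfl
    simp at hlogn0
  have hnpos : (0 : ℝ) < n := by
    have : 0 < n := Nat.pos_of_ne_zero hn0
    exact_mod_cast this
  set X : ℝ := Real.log n / Real.log Q with hX
  have hX0 : 0 < X := div_pos hlogn0 hlogQ0
  have hcX : 1 ≤ c * X := by
    rw [hX, mul_div_assoc', one_le_div hlogQ0]
    exact hlog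
  have hY1 : 1 ≤ a * X := hcX.trans (mul_le_mul_of_nonneg_right hca hX0.le)
  set Y : ℝ := a * X with hY
  have hY0 : 0 < Y := by linarith
  set W : ℝ := Y ^ (1 / s) with hW
  have hW1 : 1 ≤ W := Real.one_le_rpow hY1 (by positivity)
  have hW0 : 0 < W := by linarith
  set j : ℕ := ⌊W⌋₊ with hj
  have hj1 : 1 ≤ j := Nat.le_floor (by simpa using hW1)
  have hj1r : (1 : ℝ) ≤ j := by exact_mod_cast hj1
  have hjW : (j : ℝ) ≤ W := Nat.floor_le hW0.le
  have hjW2 : W / 2 ≤ j := by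
    have := Nat.lt_floor_add_one W
    rw [← hj] at this
    linarith
  have hr1 : ((r - 1 : ℕ) : ℝ) = s := by
    rw [Nat.cast_sub (by omega), hs]; simp
  have hjK : (j : ℝ) ^ (r - 1) ≤ Y := by
    calc (j : ℝ) ^ (r - 1) ≤ W ^ (r - 1) := pow_le_pow_left₀ (by linarith) hjW _
      _ = Y := by
        rw [hW, ← Real.rpow_natCast, ← Real.rpow_mul hY0.le, hr1, one_div_mul_cancel hs0.ne',
          Real.rpow_one]
  -- the main logarithmic estimate
  set K : ℕ := j ^ (r - 1) with hK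
  have hKY : (K : ℝ) ≤ Y := by rw [hK]; push_cast; exact hjK
  have hjK1 : (j : ℝ) ≤ K := by
    have : j ≤ K := by
      rw [hK]
      exact Nat.le_self_pow (by omega) j
    exact_mod_cast this
  have hKQ : K * Real.log Q ≤ a * Real.log n := by
    calc (K : ℝ) * Real.log Q ≤ Y * Real.log Q := mul_le_mul_of_nonneg_right hKY hlogQ0.le
      _ = a * Real.log n := by rw [hY, hX]; field_simp
  have hlogj : Real.log j ≤ K := by
    have := Real.log_le_sub_one_of_pos (x := (j : ℝ)) (by linarith)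
    linarith
  have hmain : 256 * (j : ℝ) ^ (4 * r) * Q ^ K ≤ n := by
    rw [← Real.log_le_log_iff (by positivity) hnpos, Real.log_mul (by positivity) (by positivity),
      Real.log_mul (by norm_num) (by positivity), Real.log_pow, Real.log_pow]
    have e256 : Real.log 256 = 2 * Real.log 16 := by
      rw [show (256 : ℝ) = 16 ^ 2 by norm_num, Real.log_pow]; norm_num
    rw [e256]
    push_cast
    have h1 : 2 * Real.log 16 ≤ 1 / 4 * Real.log n := by
      have : c * Real.log n ≤ 1 / 8 * Real.log n := mul_le_mul_of_nonneg_right hc8 hlogn0.le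
      linarith
    have h2 : 4 * (r : ℝ) * Real.log j ≤ 1 / 2 * Real.log n := by
      have h3 : Real.log j ≤ a * Real.log n := by
        have : (K : ℝ) ≤ K * Real.log Q := by nlinarith
        linarith
      calc 4 * (r : ℝ) * Real.log j ≤ 4 * (r : ℝ) * (a * Real.log n) :=
            mul_le_mul_of_nonneg_left h3 (by positivity)
        _ = 1 / 2 * Real.log n := by rw [ha]; field_simp; ring
    have h3 : a ≤ 1 / 4 := by
      rw [ha]
      apply one_div_le_one_div_of_le (by norm_num)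
      linarith
    have h4 : a * Real.log n ≤ 1 / 4 * Real.log n := mul_le_mul_of_nonneg_right h3 hlogn0.le
    linarith
  have hQK1 : (1 : ℝ) ≤ Q ^ K := one_le_pow₀ (by linarith)
  have hD : 1 ≤ j ^ r := Nat.one_le_pow _ _ hj1
  have hj4 : (j : ℝ) ^ (4 * r) = (((j ^ r : ℕ) : ℝ)) ^ 4 := by
    push_cast
    rw [← pow_mul, mul_comm]
  rw [hj4] at hmain
  obtain ⟨L, hL1, hL2, hL3⟩ := param_L n (j ^ r) (Q ^ K) hD hQK1 hmain
  refine ⟨j, L, hj1, hL1, hL2, hL3, ?_⟩
  push_cast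
  have h1 : (W / 2) ^ r ≤ (j : ℝ) ^ r := pow_le_pow_left₀ (by positivity) hjW2 r
  have h2 : (W / 2) ^ r = c1 * X ^ ((r : ℝ) / s) := by
    rw [div_pow, hW, ← Real.rpow_natCast (Y ^ (1 / s)), ← Real.rpow_mul hY0.le, hc1]
    have e1 : 1 / s * (r : ℝ) = (r : ℝ) / s := by ring
    rw [e1, hY, Real.mul_rpow ha0.le hX0.le]
    ring
  rw [h2] at h1
  refine le_trans ?_ h1
  exact mul_le_mul_of_nonneg_right hcc1 (by positivity)

end Vale.Agent.P063
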