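import Mathlib
import Vale.Agent.Lib.P063.Fourier

/-!
# P063, module RUSSO: Russo's formula and influences
-/

namespace Vale.Agent.P063

open Finset

variable {E : Type*} [Fintype E] [DecidableEq E]

namespace Russo

theorem sum_flip (e : E) (G : (E → Bool) → ℝ) :
    2 * ∑ x, G x = ∑ x : E → Bool, (G (Function.update x e true) + G (Function.update x e false)) := by
  have hinv : Function.Involutive (fun x : E → Bool => Function.update x e (!x e)) := by
    intro x
    ext e'
    by_cases h : e' = e
    · subst h
      simp
    · simp [Function.update_of_ne h]
  have h1 : ∑ x : E → Bool, G (Function.update x e (!x e)) = ∑ x, G x :=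
    Equiv.sum_comp hinv.toPerm G
  have h2 : ∀ x : E → Bool, G x + G (Function.update x e (!x e)) =
      G (Function.update x e true) + G (Function.update x e false) := by
    intro x
    rcases hx : x e with _ | _
    · have h3 : Function.update x e false = x := by
        rw [← hx]
        exact Function.update_eq_self e x
      rw [h3]
      simp only [Bool.not_false]
      ring
    · have h3 : Function.update x e true = x := by
        rw [← hx]
        exact Function.update_eq_self e x
      rw [h3]
      simp only [Bool.not_true]
  rw [← Finset.sum_congr rfl (fun x _ => h2 x), Finset.sum_add_distrib, h1]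
  ring

/-- the weight of the other coordinates -/
noncomputable def wo (p : ℝ) (e : E) (x : E → Bool) : ℝ :=
  ∏ e' ∈ univ.erase e, (if x e' then p else 1 - p)

theorem wo_update (p : ℝ) (e : E) (x : E → Bool) (b : Bool) :
    wo p e (Function.update x e b) = wo p e x := by
  unfold wo
  apply Finset.prod_congr rfl
  intro e' he'
  rw [Function.update_of_ne (Finset.ne_of_mem_erase he')]

theorem wt_update (p : ℝ) (e : E) (x : E → Bool) (b : Bool) :
    wt p (Function.update x e b) = (if b then p else 1 - p) * wo p e x := by
  unfold wt wo
  rw [← Finset.mul_prod_erase univ _ (Finset.mem_univ e), Function.update_self]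
  congr 1
  apply Finset.prod_congr rfl
  intro e' he'
  rw [Function.update_of_ne (Finset.ne_of_mem_erase he')]

/-- averaging over one coordinate -/
theorem Ex_coord (p : ℝ) (e : E) (F : (E → Bool) → ℝ) :
    Ex p F = Ex p (fun x => p * F (Function.update x e true) +
      (1 - p) * F (Function.update x e false)) := by
  have h1 := sum_flip e (fun x => wt p x * F x)
  have h2 := sum_flip e (fun x => wt p x * (p * F (Function.update x e true) +
      (1 - p) * F (Function.update x e false)))
  simp only [wt_update, Function.update_idem, if_true, Bool.false_eq_true, if_false] at h1 h2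
  have h3 : ∑ x : E → Bool, (p * wo p e x * F (Function.update x e true) +
      (1 - p) * wo p e x * F (Function.update x e false)) =
      ∑ x : E → Bool, (p * wo p e x * (p * F (Function.update x e true) +
      (1 - p) * F (Function.update x e false)) +
      (1 - p) * wo p e x * (p * F (Function.update x e true) +
      (1 - p) * F (Function.update x e false))) := by
    apply Finset.sum_congr rfl
    intro x _
    ring
  unfold Ex
  linarith

/-- the expectation of a function which does not depend on the coordinate `e` -/
theorem Ex_indep (p : ℝ) (e : E) (D : (E → Bool) → ℝ)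
    (hD : ∀ x b, D (Function.update x e b) = D x) :
    2 * Ex p D = ∑ x : E → Bool, wo p e x * D x := by
  unfold Ex
  rw [sum_flip e (fun x => wt p x * D x)]
  apply Finset.sum_congr rfl
  intro x _
  rw [wt_update, wt_update, hD, hD]
  simp only [if_true, Bool.false_eq_true, if_false]
  ring

theorem chi_update (p : ℝ) {S : Finset E} {e : E} (he : e ∉ S) (x : E → Bool) (b : Bool) :
    chi p S (Function.update x e b) = chi p S x := by
  unfold chi
  apply Finset.prod_congr rfl
  intro e' he'
  have hne : e' ≠ e := fun h => he (h ▸ he')
  rw [Function.update_of_ne hne]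

theorem chi_insert (p : ℝ) {S : Finset E} {e : E} (he : e ∉ S) (x : E → Bool) :
    chi p (insert e S) x = phi p (x e) * chi p S x := by
  unfold chi
  rw [Finset.prod_insert he]

/-- the coefficients of the set containing `e` -/
theorem coef_insert {p : ℝ} (hp0 : 0 < p) (hp1 : p < 1) (f : (E → Bool) → ℝ) {S : Finset E} {e : E}
    (he : e ∉ S) : coef p f (insert e S) = Real.sqrt (p * (1 - p)) *
      coef p (fun x => f (Function.update x e true) - f (Function.update x e false)) S := by
  have hq : 0 < 1 - p := by linarith
  have hpq : 0 < p * (1 - p) := by positivity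
  have hs : 0 < Real.sqrt (p * (1 - p)) := Real.sqrt_pos.2 hpq
  have hss : Real.sqrt (p * (1 - p)) * Real.sqrt (p * (1 - p)) = p * (1 - p) :=
    Real.mul_self_sqrt hpq.le
  unfold coef
  rw [Ex_coord p e]
  unfold Ex
  rw [Finset.mul_sum]
  apply Finset.sum_congr rfl
  intro x _
  beta_reduce
  rw [chi_insert p he, chi_insert p he, chi_update p he, chi_update p he, Function.update_self,
    Function.update_self]
  have h1 : phi p true = (1 - p) / Real.sqrt (p * (1 - p)) := by
    unfold phi
    simp
  have h2 : phi p false = -p / Real.sqrt (p * (1 - p)) := by
    unfold phi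
    simp
  rw [h1, h2]
  have h3 : p * ((1 - p) / Real.sqrt (p * (1 - p))) = Real.sqrt (p * (1 - p)) := by
    rw [mul_div_assoc', div_eq_iff hs.ne', hss]
  have h4 : (1 - p) * (-p / Real.sqrt (p * (1 - p))) = - Real.sqrt (p * (1 - p)) := by
    have : (1 - p) * (-p / Real.sqrt (p * (1 - p))) =
        - (p * ((1 - p) / Real.sqrt (p * (1 - p)))) := by ring
    rw [this, h3]
  calc wt p x * (p * (f (Function.update x e true) *
        ((1 - p) / Real.sqrt (p * (1 - p)) * chi p S x)) +
        (1 - p) * (f (Function.update x e false) *
        (-p / Real.sqrt (p * (1 - p)) * chi p S x)))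
      = wt p x * (p * ((1 - p) / Real.sqrt (p * (1 - p))) * f (Function.update x e true) *
        chi p S x + (1 - p) * (-p / Real.sqrt (p * (1 - p))) * f (Function.update x e false) *
        chi p S x) := by ring
    _ = _ := by
        rw [h3, h4]
        ring

theorem coef_eq_zero {p : ℝ} (D : (E → Bool) → ℝ) {S : Finset E} {e : E}
    (hD : ∀ x b, D (Function.update x e b) = D x) (he : e ∈ S) : coef p D S = 0 := by
  obtain ⟨T, hT, rfl⟩ : ∃ T, e ∉ T ∧ insert e T = S :=
    ⟨S.erase e, Finset.notMem_erase e S, Finset.insert_erase he⟩
  unfold coef
  rw [Ex_coord p e]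
  unfold Ex
  apply Finset.sum_eq_zero
  intro x _
  beta_reduce
  rw [chi_insert p hT, chi_insert p hT, chi_update p hT, chi_update p hT, Function.update_self,
    Function.update_self, hD, hD]
  have h1 : p * phi p true + (1 - p) * phi p false = 0 := by
    unfold phi
    simp only [if_true, Bool.false_eq_true, if_false]
    ring
  have h2 : p * (D x * (phi p true * chi p T x)) + (1 - p) * (D x * (phi p false * chi p T x)) =
      (p * phi p true + (1 - p) * phi p false) * (D x * chi p T x) := by ring
  rw [h2, h1]
  ring

end Russo

open Russo in
/-- MODULE RUSSO (a) : Russo's formula. `Function.update x e b` sets the coordinate `e`. -/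
theorem russo (f : (E → Bool) → ℝ) (p : ℝ) :
    HasDerivAt (fun p => Ex p f)
      (∑ e, Ex p (fun x => f (Function.update x e true) - f (Function.update x e false))) p := by
  have h1 : ∀ x : E → Bool, HasDerivAt (fun p => wt p x * f x)
      ((∑ e, wo p e x * (if x e then 1 else -1)) * f x) p := by
    intro x
    apply HasDerivAt.mul_const
    unfold wt wo
    have h2 : ∀ e ∈ (univ : Finset E), HasDerivAt (fun p : ℝ => if x e then p else 1 - p)
        (if x e then 1 else -1) p := by
      intro e _
      by_cases hx : x e = true
      · simp only [hx, if_true]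
        exact hasDerivAt_id p
      · simp only [hx, if_false, Bool.false_eq_true]
        exact (hasDerivAt_id p).const_sub 1
    have h3 := HasDerivAt.fun_finsetProd h2
    simpa [smul_eq_mul] using h3
  have h2 : HasDerivAt (fun p => ∑ x : E → Bool, wt p x * f x)
      (∑ x : E → Bool, (∑ e, wo p e x * (if x e then 1 else -1)) * f x) p :=
    HasDerivAt.fun_sum fun x _ => h1 x
  have h3 : ∑ x : E → Bool, (∑ e, wo p e x * (if x e then 1 else -1)) * f x =
      ∑ e, Ex p (fun x => f (Function.update x e true) - f (Function.update x e false)) := by
    simp only [Finset.sum_mul]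
    rw [Finset.sum_comm]
    apply Finset.sum_congr rfl
    intro e _
    have h4 := sum_flip e (fun x => wo p e x * (if x e then 1 else -1) * f x)
    have h5 := Ex_indep p e (fun x => f (Function.update x e true) - f (Function.update x e false))
      (fun x b => by simp only [Function.update_idem])
    have h6 : ∑ x : E → Bool,
        (wo p e (Function.update x e true) * (if Function.update x e true e then 1 else -1) *
          f (Function.update x e true) +
        wo p e (Function.update x e false) * (if Function.update x e false e then 1 else -1) *
          f (Function.update x e false)) =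
        ∑ x : E → Bool, wo p e x *
          (f (Function.update x e true) - f (Function.update x e false)) := by
      apply Finset.sum_congr rfl
      intro x _
      rw [wo_update, wo_update, Function.update_self, Function.update_self]
      simp only [if_true, Bool.false_eq_true, if_false]
      ring
    linarith
  rw [← h3]
  exact h2

open Russo in
/-- MODULE RUSSO (b) : the influence of a coordinate. -/
theorem sum_coef_sq_mem (p : ℝ) (hp0 : 0 < p) (hp1 : p < 1) (f : (E → Bool) → ℝ) (e : E) :
    ∑ S ∈ (univ : Finset (Finset E)).filter (fun S => e ∈ S), coef p f S ^ 2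
      = p * (1 - p) * Ex p (fun x =>
          (f (Function.update x e true) - f (Function.update x e false)) ^ 2) := by
  have hq : 0 < 1 - p := by linarith
  have hpq : 0 < p * (1 - p) := by positivity
  obtain ⟨D, hD⟩ : ∃ D : (E → Bool) → ℝ,
    D = fun x => f (Function.update x e true) - f (Function.update x e false) := ⟨_, rfl⟩
  have hDu : ∀ x b, D (Function.update x e b) = D x := by
    intro x b
    rw [hD]
    simp only [Function.update_idem]
  have h1 := parseval hp0 hp1 D D
  have h2 : Ex p (fun x => D x ^ 2) = ∑ T : Finset E, coef p D T ^ 2 := by
    simp only [sq]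
    exact h1
  have h3 : ∑ T : Finset E, coef p D T ^ 2 =
      ∑ T ∈ (univ : Finset (Finset E)).filter (fun T => e ∉ T), coef p D T ^ 2 := by
    symm
    apply Finset.sum_subset (Finset.filter_subset _ _)
    intro T _ hT
    rw [Finset.mem_filter, not_and, not_not] at hT
    rw [coef_eq_zero D hDu (hT (Finset.mem_univ T))]
    ring
  have h4 : ∑ S ∈ (univ : Finset (Finset E)).filter (fun S => e ∈ S), coef p f S ^ 2 =
      ∑ T ∈ (univ : Finset (Finset E)).filter (fun T => e ∉ T), p * (1 - p) * coef p D T ^ 2 := by
    apply Finset.sum_nbij' (fun S => S.erase e) (fun T => insert e T)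
    · intro S _
      simp
    · intro T _
      simp
    · intro S hS
      rw [Finset.mem_filter] at hS
      exact Finset.insert_erase hS.2
    · intro T hT
      rw [Finset.mem_filter] at hT
      exact Finset.erase_insert hT.2
    · intro S hS
      rw [Finset.mem_filter] at hS
      have h5 := coef_insert hp0 hp1 f (Finset.notMem_erase e S)
      rw [Finset.insert_erase hS.2] at h5
      rw [h5, mul_pow, Real.sq_sqrt hpq.le, hD]
  rw [h4, ← Finset.mul_sum, ← h3, ← h2, hD]

end Vale.Agent.P063
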