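import Vale.Agent.Lib.P063.Statement
import Vale.Agent.Lib.P063.Main
import Vale.Agent.Lib.P063.Hyper
import Vale.Agent.Lib.P063.Russo
import Vale.Agent.Lib.P063.Param

/-!
# P063: hypergraph properties
-/

namespace Vale.Agent.P063

open Finset

/-! ### the degree lemma -/

theorem exists_low_degree {n r j : ℕ} (hr : 2 ≤ r) (S : Finset (Hyperedge n r))
    (hS : S.Nonempty) (hj : r * S.card ≤ j ^ r) :
    ∃ v, 1 ≤ (S.filter (fun e => v ∈ e.1)).card ∧
      (S.filter (fun e => v ∈ e.1)).card ≤ j ^ (r - 1) := by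
  by_contra hcon
  push Not at hcon
  set U : Finset (Fin n) := S.biUnion (fun e => e.1) with hU
  have hdeg : ∀ v ∈ U, j ^ (r - 1) < (S.filter (fun e => v ∈ e.1)).card := by
    intro v hv
    obtain ⟨e, he, hve⟩ := mem_biUnion.1 hv
    exact hcon v (card_pos.2 ⟨e, mem_filter.2 ⟨he, hve⟩⟩)
  -- the degree is at most the number of subsets
  have hup : ∀ v ∈ U, (S.filter (fun e => v ∈ e.1)).card ≤ U.card ^ (r - 1) := by
    intro v hv
    have h1 : (S.filter (fun e => v ∈ e.1)).card ≤ (powersetCard (r - 1) (U.erase v)).card := by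
      refine card_le_card_of_injOn (fun e => e.1.erase v) ?_ ?_
      · intro e he
        obtain ⟨he1, he2⟩ := mem_filter.1 (Finset.mem_coe.1 he)
        refine Finset.mem_coe.2 (mem_powersetCard.2 ⟨?_, ?_⟩)
        · intro u hu
          obtain ⟨hu1, hu2⟩ := mem_erase.1 hu
          exact mem_erase.2 ⟨hu1, mem_biUnion.2 ⟨e, he1, hu2⟩⟩
        · rw [card_erase_of_mem he2, e.2]
      · intro a ha b hb hab
        have ha2 := (mem_filter.1 (Finset.mem_coe.1 ha)).2
        have hb2 := (mem_filter.1 (Finset.mem_coe.1 hb)).2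
        apply Subtype.ext
        have : insert v (a.1.erase v) = insert v (b.1.erase v) := by
          have h3 : a.1.erase v = b.1.erase v := hab
          rw [h3]
        rwa [insert_erase ha2, insert_erase hb2] at this
    refine h1.trans ?_
    rw [card_powersetCard]
    refine (Nat.choose_le_pow _ _).trans ?_
    exact Nat.pow_le_pow_left (card_erase_le) _
  obtain ⟨e0, he0⟩ := hS
  have hUne : U.Nonempty := by
    have : e0.1.Nonempty := card_pos.1 (by rw [e0.2]; omega)
    obtain ⟨v, hv⟩ := this
    exact ⟨v, mem_biUnion.2 ⟨e0, he0, hv⟩⟩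
  have hjU : j < U.card := by
    obtain ⟨v, hv⟩ := hUne
    have h1 := (hdeg v hv).trans_le (hup v hv)
    exact lt_of_pow_lt_pow_left₀ (r - 1) (Nat.zero_le _) h1
  have hsum : ∑ v ∈ U, (S.filter (fun e => v ∈ e.1)).card = r * S.card := by
    have h1 : ∀ v, (S.filter (fun e => v ∈ e.1)).card = ∑ e ∈ S, if v ∈ e.1 then 1 else 0 := by
      intro v
      rw [card_eq_sum_ones, ← sum_filter]
    simp_rw [h1]
    rw [sum_comm]
    have h2 : ∀ e ∈ S, (∑ v ∈ U, if v ∈ e.1 then 1 else 0) = r := by
      intro e he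
      rw [← sum_filter, ← card_eq_sum_ones]
      have h3 : U.filter (fun v => v ∈ e.1) = e.1 := by
        ext v
        simp only [mem_filter, and_iff_right_iff_imp]
        intro hv
        exact mem_biUnion.2 ⟨e, he, hv⟩
      rw [h3, e.2]
    rw [sum_congr rfl h2, sum_const, smul_eq_mul, mul_comm]
  have hlow : U.card * (j ^ (r - 1) + 1) ≤ ∑ v ∈ U, (S.filter (fun e => v ∈ e.1)).card := by
    rw [← smul_eq_mul, ← sum_const]
    exact sum_le_sum fun v hv => hdeg v hv
  have hjr : j ^ r = j * j ^ (r - 1) := by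
    obtain ⟨q, rfl⟩ : ∃ q, r = q + 1 := ⟨r - 1, by omega⟩
    rw [Nat.add_sub_cancel, pow_succ]
    ring
  rw [hsum] at hlow
  have h5 : U.card * (j ^ (r - 1) + 1) ≤ j * j ^ (r - 1) := by
    rw [← hjr]; exact hlow.trans hj
  have h6 : j * j ^ (r - 1) ≤ U.card * j ^ (r - 1) := Nat.mul_le_mul_right _ hjU.le
  have h7 : U.card * (j ^ (r - 1) + 1) = U.card * j ^ (r - 1) + U.card := by ring
  omega

/-! ### indicator functions -/

/-- the edge set of a point of the cube -/
def toG {n r : ℕ} (x : Hyperedge n r → Bool) : Finset (Hyperedge n r) :=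
  univ.filter (fun e => x e = true)

open Classical in
/-- the indicator function of a family -/
noncomputable def ind {n r : ℕ} (P : Set (Finset (Hyperedge n r))) (x : Hyperedge n r → Bool) :
    ℝ := if toG x ∈ P then 1 else 0

theorem ind_zero_or_one {n r : ℕ} (P : Set (Finset (Hyperedge n r)))
    (x : Hyperedge n r → Bool) : ind P x = 0 ∨ ind P x = 1 := by
  unfold ind
  split_ifs
  · right; rfl
  · left; rfl

theorem mem_toG {n r : ℕ} {x : Hyperedge n r → Bool} {e : Hyperedge n r} :
    e ∈ toG x ↔ x e = true := by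
  unfold toG; simp

/-- points of the cube and edge sets -/
def cubeEquiv (n r : ℕ) : (Hyperedge n r → Bool) ≃ Finset (Hyperedge n r) where
  toFun := toG
  invFun G := fun e => decide (e ∈ G)
  left_inv x := by
    funext e
    simp only [mem_toG]
    cases x e <;> simp
  right_inv G := by
    ext e
    simp [mem_toG]

theorem wt_eq {n r : ℕ} (p : ℝ) (x : Hyperedge n r → Bool) :
    wt p x = p ^ (toG x).card * (1 - p) ^ (Fintype.card (Hyperedge n r) - (toG x).card) := by
  unfold wt
  rw [prod_ite, prod_const, prod_const]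
  congr 2
  have h1 : (univ.filter (fun e => ¬ (x e = true))) = univ \ toG x := by
    ext e; simp [mem_toG]
  rw [h1, card_sdiff_of_subset (subset_univ _), card_univ]

open Classical in
theorem prob_eq {n r : ℕ} (P : Set (Finset (Hyperedge n r))) (p : ℝ) :
    prob P p = Ex p (ind P) := by
  unfold prob Ex
  symm
  refine Fintype.sum_equiv (cubeEquiv n r) _ _ fun x => ?_
  change wt p x * ind P x = if toG x ∈ P then
    p ^ (toG x).card * (1 - p) ^ (Fintype.card (Hyperedge n r) - (toG x).card) else 0
  unfold ind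
  rw [wt_eq]
  split_ifs
  · rw [mul_one]
  · rw [mul_zero]

theorem ind_comp {n r : ℕ} {P : Set (Finset (Hyperedge n r))} (hP : IsInvariant P)
    (σ : Equiv.Perm (Fin n)) (x : Hyperedge n r → Bool) :
    ind P (x ∘ relabel σ) = ind P x := by
  have key : ∀ (τ : Equiv.Perm (Fin n)) (y : Hyperedge n r → Bool),
      toG y ∈ P → toG (y ∘ relabel τ) ∈ P := by
    intro τ y hy
    have h1 := hP τ.symm (toG y) hy
    have h2 : (toG y).map (relabel τ.symm).toEmbedding = toG (y ∘ relabel τ) := by
      ext e
      simp only [mem_map, mem_toG, Equiv.coe_toEmbedding, Function.comp_apply]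
      constructor
      · rintro ⟨a, ha, rfl⟩
        have : relabel τ (relabel τ.symm a) = a := by
          apply Subtype.ext
          ext v
          simp [relabel]
        rw [this]
        exact ha
      · intro h
        refine ⟨relabel τ e, h, ?_⟩
        apply Subtype.ext
        ext v
        simp [relabel]
    rw [← h2]
    exact h1
  unfold ind
  have hiff : toG (x ∘ relabel σ) ∈ P ↔ toG x ∈ P := by
    constructor
    · intro h
      have := key σ.symm _ h
      have h3 : (x ∘ relabel σ) ∘ relabel σ.symm = x := by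
        funext e
        simp only [Function.comp_apply]
        congr 1
        apply Subtype.ext
        ext v
        simp [relabel]
      rwa [h3] at this
    · exact key σ x
  by_cases h : toG x ∈ P
  · rw [if_pos h, if_pos (hiff.2 h)]
  · rw [if_neg h, if_neg (fun h' => h (hiff.1 h'))]

/-! ### the inequality -/

theorem four_div_ge {p : ℝ} (hp0 : 0 < p) (hp1 : p < 1) : 16 ≤ 4 / (p * (1 - p)) := by
  have h := pq_pos hp0 hp1
  rw [le_div_iff₀ h]
  nlinarith [sq_nonneg (1 - 2 * p)]

/-- the main inequality, for all families invariant under permutations of the vertices (not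
necessarily increasing) -/
theorem main_ineq (r : ℕ) (hr : 2 ≤ r) : ∃ c : ℝ, 0 < c ∧
    ∀ (n : ℕ) (P : Set (Finset (Hyperedge n r))), IsInvariant P →
    ∀ p : ℝ, 0 < p → p < 1 → Real.log (4 / (p * (1 - p))) ≤ c * Real.log n →
      c * (Real.log n / Real.log (4 / (p * (1 - p)))) ^ ((r : ℝ) / (r - 1))
        * (prob P p * (1 - prob P p))
      ≤ ∑ S : Finset (Hyperedge n r), (S.card : ℝ) * coef p (ind P) S ^ 2 := by
  obtain ⟨c, hc, hpar⟩ := param r hr
  have hr2 : (2 : ℝ) ≤ r := by exact_mod_cast hr
  refine ⟨c / (2 * r), by positivity, ?_⟩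
  intro n P hP p hp0 hp1 hlog
  have hQ := four_div_ge hp0 hp1
  have hlogn : 0 ≤ Real.log n := Real.log_natCast_nonneg n
  have hcle : c / (2 * r) ≤ c := by
    rw [div_le_iff₀ (by positivity)]
    nlinarith
  obtain ⟨j, L, hj, hL, h1, h2, h3⟩ := hpar n _ hQ
    (hlog.trans (mul_le_mul_of_nonneg_right hcle hlogn))
  have hmain := main_abstract (E := Hyperedge n r) (V := Fin n) (fun e => e.1)
    Subtype.val_injective r (j ^ r) (j ^ (r - 1)) L (fun e => e.2.le)
    (by rw [Fintype.card_fin]; exact h1) hL hp0 hp1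
    (fun h hk => bonami p hp0 hp1 _ h hk) h2
    (fun S hS hSj => exists_low_degree hr S hS hSj) (ind P) (ind_zero_or_one P)
    (fun σ => ⟨relabel σ, fun e => rfl, fun x => ind_comp hP σ x⟩)
  refine le_trans ?_ hmain
  rw [← prob_eq]
  have hv : 0 ≤ prob P p * (1 - prob P p) := by
    rw [prob_eq]
    have h4 := Ex_nonneg hp0.le hp1.le (f := ind P) (fun x => by
      rcases ind_zero_or_one P x with h | h <;> rw [h] <;> norm_num)
    have h5 := Ex_mono hp0.le hp1.le (f := ind P) (g := fun _ => 1) (fun x => by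
      rcases ind_zero_or_one P x with h | h <;> rw [h] <;> norm_num)
    rw [Ex_one] at h5
    exact mul_nonneg h4 (by linarith)
  refine mul_le_mul_of_nonneg_right ?_ hv
  calc c / (2 * r) * (Real.log n / Real.log (4 / (p * (1 - p)))) ^ ((r : ℝ) / (r - 1))
      = (c * (Real.log n / Real.log (4 / (p * (1 - p)))) ^ ((r : ℝ) / (r - 1))) / (2 * r) := by
        ring
    _ ≤ ((j ^ r : ℕ) : ℝ) / (2 * r) := div_le_div_of_nonneg_right h3 (by positivity)

end Vale.Agent.P063
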