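import Mathlib

/-!
# P063: thresholds of increasing hypergraph properties (the definitions of the statement)
-/

namespace Vale.Agent.P063

open Finset

/-- the `r`-element subsets of `Fin n`, i.e. the coordinates `E_{n,r}`; a finite set
`G : Finset (Hyperedge n r)` is an `r`-uniform hypergraph (a simple graph when `r = 2`) on the
vertex set `Fin n` -/
abbrev Hyperedge (n r : ℕ) : Type := {e : Finset (Fin n) // e.card = r}

/-- the action of a permutation of the vertices on the hyperedges -/
def relabel {n r : ℕ} (σ : Equiv.Perm (Fin n)) : Equiv.Perm (Hyperedge n r) where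
  toFun e := ⟨e.1.map σ.toEmbedding, by rw [card_map, e.2]⟩
  invFun e := ⟨e.1.map σ.symm.toEmbedding, by rw [card_map, e.2]⟩
  left_inv e := by
    apply Subtype.ext
    ext v
    simp
  right_inv e := by
    apply Subtype.ext
    ext v
    simp

/-- `P` is a hypergraph property: it is invariant under all permutations of the vertices -/
def IsInvariant {n r : ℕ} (P : Set (Finset (Hyperedge n r))) : Prop :=
  ∀ (σ : Equiv.Perm (Fin n)) (G : Finset (Hyperedge n r)),
    G ∈ P → G.map (relabel σ).toEmbedding ∈ P

/-- `P` is increasing: adding hyperedges preserves membership -/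
def IsIncreasing {n r : ℕ} (P : Set (Finset (Hyperedge n r))) : Prop :=
  ∀ G H : Finset (Hyperedge n r), G ∈ P → G ⊆ H → H ∈ P

open Classical in
/-- the probability that the random hypergraph, in which each hyperedge is present independently
with probability `p`, lies in `P` -/
noncomputable def prob {n r : ℕ} (P : Set (Finset (Hyperedge n r))) (p : ℝ) : ℝ :=
  ∑ G : Finset (Hyperedge n r),
    if G ∈ P then p ^ G.card * (1 - p) ^ (Fintype.card (Hyperedge n r) - G.card) else 0

/-- the threshold `p_a(P)`, the infimum of the `p` in `[0,1]` at which `P` has probability at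
least `a` -/
noncomputable def thr {n r : ℕ} (P : Set (Finset (Hyperedge n r))) (a : ℝ) : ℝ :=
  sInf {p : ℝ | 0 ≤ p ∧ p ≤ 1 ∧ a ≤ prob P p}

end Vale.Agent.P063
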