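import Vale.Agent.Lib.P063.Core

/-!
# P063: symmetry and the size of the star derivative
-/

namespace Vale.Agent.P063

open Finset

variable {E V : Type*} [Fintype E] [DecidableEq E] [DecidableEq V]

omit [DecidableEq E] in
theorem wt_comp (p : ℝ) (ρ : Equiv.Perm E) (x : E → Bool) : wt p (x ∘ ρ) = wt p x := by
  unfold wt
  exact Fintype.prod_equiv ρ _ _ fun e => rfl

theorem Ex_comp (p : ℝ) (ρ : Equiv.Perm E) (g : (E → Bool) → ℝ) :
    Ex p (fun x => g (x ∘ ρ)) = Ex p g := by
  unfold Ex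
  refine Fintype.sum_equiv (Equiv.arrowCongr ρ.symm (Equiv.refl Bool)) _ _ fun x => ?_
  have h : (Equiv.arrowCongr ρ.symm (Equiv.refl Bool)) x = x ∘ ρ := by
    funext e
    simp
  rw [h, wt_comp]

theorem avg_star_comp (p : ℝ) {vs : E → Finset V} {σ : Equiv.Perm V} {ρ : Equiv.Perm E}
    (hρ : ∀ e, vs (ρ e) = (vs e).map σ.toEmbedding) {f : (E → Bool) → ℝ}
    (hf : ∀ x, f (x ∘ ρ) = f x) (v : V) (x : E → Bool) :
    avg p (star vs v) f (x ∘ ρ) = avg p (star vs (σ v)) f x := by
  unfold avg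
  rw [← Ex_comp p ρ]
  refine Ex_congr fun y => ?_
  rw [← hf (mix (star vs (σ v)) x y)]
  congr 1
  funext e
  unfold mix
  have h : (e ∈ star vs v) ↔ (ρ e ∈ star vs (σ v)) := by
    rw [mem_star, mem_star, hρ]
    simp
  simp only [Function.comp_apply, h]

theorem del_comp (p : ℝ) {vs : E → Finset V} {σ : Equiv.Perm V} {ρ : Equiv.Perm E}
    (hρ : ∀ e, vs (ρ e) = (vs e).map σ.toEmbedding) {f : (E → Bool) → ℝ}
    (hf : ∀ x, f (x ∘ ρ) = f x) (v : V) (x : E → Bool) :
    del p f vs v (x ∘ ρ) = del p f vs (σ v) x := by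
  unfold del
  rw [hf, avg_star_comp p hρ hf]

theorem Ex_del_comp (p : ℝ) {vs : E → Finset V} {σ : Equiv.Perm V} {ρ : Equiv.Perm E}
    (hρ : ∀ e, vs (ρ e) = (vs e).map σ.toEmbedding) {f : (E → Bool) → ℝ}
    (hf : ∀ x, f (x ∘ ρ) = f x) (v : V) :
    Ex p (fun x => |del p f vs v x|) = Ex p (fun x => |del p f vs (σ v) x|) := by
  rw [← Ex_comp p ρ]
  exact Ex_congr fun x => by rw [del_comp p hρ hf]

theorem avg_touch_comp (p : ℝ) {vs : E → Finset V} (hinj : Function.Injective vs)
    {f : (E → Bool) → ℝ} {W : Finset V} {v v' : V} (hv : v ∈ W) (hv' : v' ∈ W)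
    {ρ : Equiv.Perm E}
    (hρ : ∀ e, vs (ρ e) = (vs e).map (Equiv.swap v v').toEmbedding)
    (hf : ∀ x, f (x ∘ ρ) = f x) (x : E → Bool) :
    avg p (touch vs W) (fun z => |del p f vs v z|) x
      = avg p (touch vs W) (fun z => |del p f vs v' z|) x := by
  unfold avg
  rw [← Ex_comp p ρ]
  refine Ex_congr fun y => ?_
  have h0 : v' = (Equiv.swap v v') v := by simp
  conv_rhs => rw [h0]
  change |del p f vs v (mix (touch vs W) x (y ∘ ρ))|
    = |del p f vs ((Equiv.swap v v') v) (mix (touch vs W) x y)|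
  rw [← del_comp p hρ hf v]
  congr 2
  funext e
  -- swapping two vertices of `W`
  have hW : ∀ u, (Equiv.swap v v') u ∈ W ↔ u ∈ W := by
    intro u
    by_cases h1 : u = v
    · subst h1; simp [hv, hv']
    · by_cases h2 : u = v'
      · subst h2; simp [hv, hv']
      · rw [Equiv.swap_apply_of_ne_of_ne h1 h2]
  have ht : e ∈ touch vs W ↔ ρ e ∈ touch vs W := by
    rw [mem_touch, mem_touch, hρ]
    constructor
    · rintro ⟨u, hu⟩
      rw [mem_inter] at hu
      exact ⟨(Equiv.swap v v') u, mem_inter.2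
        ⟨mem_map_of_mem _ hu.1, (hW u).2 hu.2⟩⟩
    · rintro ⟨u, hu⟩
      rw [mem_inter, mem_map] at hu
      obtain ⟨⟨u', hu', rfl⟩, h3⟩ := hu
      exact ⟨u', mem_inter.2 ⟨hu', (hW u').1 h3⟩⟩
  unfold mix
  simp only [Function.comp_apply]
  by_cases he : e ∈ touch vs W
  · rw [if_pos he, if_pos (ht.1 he)]
  · rw [if_neg he, if_neg (fun h => he (ht.2 h))]
    have h4 : ρ e = e := by
      apply hinj
      rw [hρ]
      ext u
      simp only [mem_map, Equiv.coe_toEmbedding]
      have h5 : ∀ u ∈ vs e, (Equiv.swap v v') u = u := by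
        intro u hu
        refine Equiv.swap_apply_of_ne_of_ne ?_ ?_
        · rintro rfl
          exact he (mem_touch.2 ⟨u, mem_inter.2 ⟨hu, hv⟩⟩)
        · rintro rfl
          exact he (mem_touch.2 ⟨u, mem_inter.2 ⟨hu, hv'⟩⟩)
      constructor
      · rintro ⟨a, ha, rfl⟩
        rw [h5 a ha]
        exact ha
      · intro hu
        exact ⟨u, hu, h5 u hu⟩
    rw [h4]

/-- the size of the star derivative of an indicator -/
theorem Ex_abs_del_le {p : ℝ} (hp0 : 0 < p) (hp1 : p < 1) {f : (E → Bool) → ℝ}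
    (hf : ∀ x, f x = 0 ∨ f x = 1) (vs : E → Finset V) (v : V) :
    Ex p (fun x => |del p f vs v x|)
      ≤ 2 * ∑ S : Finset E, ((S ∩ star vs v).card : ℝ) * coef p f S ^ 2 := by
  set D := star vs v with hD
  set m := avg p D f with hm
  have hmem : ∀ x, 0 ≤ m x ∧ m x ≤ 1 := avg_mem hp0 hp1 f hf D
  have hfm : Ex p (fun x => f x * m x) = Ex p (fun x => m x ^ 2) := by
    rw [← Ex_avg p D (fun x => f x * m x)]
    refine Ex_congr fun x => ?_
    have h1 := avg_mul_of_indep p D m f (fun x y => avg_mix p D f x y) x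
    have h2 : avg p D (fun z => f z * m z) x = avg p D (fun z => m z * f z) x := by
      unfold avg
      exact Ex_congr fun y => mul_comm _ _
    rw [h2, h1, sq]
  have hf1 : Ex p f = Ex p m := (Ex_avg p D f).symm
  have h1 : Ex p (fun x => |del p f vs v x|) = 2 * Ex p (fun x => del p f vs v x ^ 2) := by
    have e1 : ∀ x, |del p f vs v x| = (f x + m x) - 2 * (f x * m x) := by
      intro x
      unfold del
      rw [← hD, ← hm]
      rcases hf x with h | h
      · rw [h, zero_sub, abs_neg, abs_of_nonneg (hmem x).1]; ring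
      · rw [h, abs_of_nonneg (by linarith [(hmem x).2])]; ring
    have e2 : ∀ x, del p f vs v x ^ 2 = (f x + m x ^ 2) - 2 * (f x * m x) := by
      intro x
      unfold del
      rw [← hD, ← hm]
      rcases hf x with h | h <;> rw [h] <;> ring
    simp_rw [e1, e2]
    rw [Ex_sub, Ex_add, Ex_sub, Ex_add, Ex_const_mul, hfm, ← hf1]
    ring
  have h2 : Ex p (fun x => del p f vs v x ^ 2)
      = ∑ S : Finset E, (if S ∩ D = ∅ then 0 else coef p f S) ^ 2 := by
    have e1 : Ex p (fun x => del p f vs v x ^ 2)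
        = Ex p (fun x => del p f vs v x * del p f vs v x) := Ex_congr fun x => sq _
    rw [e1, parseval hp0 hp1]
    refine sum_congr rfl fun S _ => ?_
    have e2 : coef p (del p f vs v) S = coef p f S - coef p m S := by
      unfold coef
      rw [← Ex_sub]
      refine Ex_congr fun x => ?_
      unfold del
      rw [← hD, ← hm]
      ring
    rw [e2, hm, coef_avg hp0 hp1]
    split_ifs <;> ring
  rw [h1, h2]
  refine mul_le_mul_of_nonneg_left (sum_le_sum fun S _ => ?_) (by norm_num)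
  split_ifs with h
  · rw [h]; simp
  · have : 1 ≤ (S ∩ D).card := card_pos.2 (nonempty_iff_ne_empty.2 h)
    have h3 : (1 : ℝ) ≤ ((S ∩ D).card : ℝ) := by exact_mod_cast this
    nlinarith [sq_nonneg (coef p f S)]

/-- double counting of incidences -/
theorem sum_star_le [Fintype V] (vs : E → Finset V) (r : ℕ) (hr : ∀ e, (vs e).card ≤ r)
    (S : Finset E) : ∑ v, (S ∩ star vs v).card ≤ r * S.card := by
  have h1 : ∀ v, (S ∩ star vs v).card = ∑ e ∈ S, if v ∈ vs e then 1 else 0 := by
    intro v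
    rw [card_eq_sum_ones, ← sum_filter]
    refine sum_congr ?_ fun _ _ => rfl
    ext e
    simp [mem_star]
  simp_rw [h1]
  rw [sum_comm]
  have h2 : ∀ e ∈ S, (∑ v, if v ∈ vs e then 1 else 0) ≤ r := by
    intro e _
    have h3 : (∑ v, if v ∈ vs e then 1 else 0) = (vs e).card := by
      rw [card_eq_sum_ones, ← sum_filter]
      refine sum_congr ?_ fun _ _ => rfl
      ext v; simp
    rw [h3]
    exact hr e
  calc ∑ e ∈ S, (∑ v, if v ∈ vs e then 1 else 0) ≤ ∑ e ∈ S, r := sum_le_sum h2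
    _ = r * S.card := by rw [sum_const, smul_eq_mul, mul_comm]

end Vale.Agent.P063
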